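import Vale.Agent.P032.R2.H833.S3B
import Vale.Agent.P032.S5.H12.En

/-!
# P032: a class with one end of each kind, contacts of type S3 only

`S3W.two`.
-/

open Set Filter Topology Metric

noncomputable section

namespace Vale.Agent.P032.Six

open S5.H767 (Ex ex_self dist_of_closure sub_of_closure line_free)

variable {U : Fin 6 → Set ℂ} {T : ℂ → Set (Fin 6)} {z v q : ℂ} {a b c d e f : Fin 6}

theorem norm_cis_sub_one833 (s : ℝ) : ‖cis s - 1‖ ≤ |s| := by
  have h1 := Real.norm_exp_I_mul_ofReal_sub_one_le (x := s)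
  rw [mul_comm] at h1
  exact h1

theorem EE.en833 (hv : EE T z v) {X : Set (Fin 6)} (hX : T v = X) : En T X z v := by
  obtain ⟨⟨o, ho, hd, h4, h3, h2, ε, hε, hg⟩, -⟩ := hv
  subst hX
  exact ⟨rfl, h4, h2, hd, o, ε, ho, hε, hg⟩

/-- the orientation of an end is unique if there is a complementary end -/
theorem EE.ori (h : Irr U T) (h4 : ∀ x, (T x).ncard ≤ 4) (hv : EE T z v) (hq : EE T z q)
    (hc : T q = (T v)ᶜ) {o o' : ℝ} (h1 : OEnd T z v o) (h2 : OEnd T z v o') : o = o' := by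
  refine h1.unique h h2 hq.dist hq.card_v.le (fun i => ?_) ?_ (hv.anti h hq hc)
    (hv.rh h h4 hq hc).card_z
  · rw [hc]; exact em _
  · rw [hc]; exact disjoint_compl_right

/-- three ends complementary to one end: impossible -/
theorem three_ends (h : Irr U T) (h4 : ∀ x, (T x).ncard ≤ 4) {x₁ x₂ x₃ : ℂ} (hq : EE T z q)
    (h1 : EE T z x₁) (c1 : T x₁ = (T q)ᶜ) (h2 : EE T z x₂) (c2 : T x₂ = (T q)ᶜ)
    (h3 : EE T z x₃) (c3 : T x₃ = (T q)ᶜ) (n12 : x₁ ≠ x₂) (n13 : x₁ ≠ x₃) (n23 : x₂ ≠ x₃) :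
    False := by
  have w1 := hq.rh h h4 h1 c1
  have w1' := hq.rh' h h4 h1 c1
  have w2 := hq.rh h h4 h2 c2
  have w2' := hq.rh' h h4 h2 c2
  have w3 := hq.rh h h4 h3 c3
  have w3' := hq.rh' h h4 h3 c3
  have a1 := hq.anti h h1 c1
  have a2 := hq.anti h h2 c2
  have a3 := hq.anti h h3 c3
  rcases h.en_three hq.card_v ⟨hq.en833 rfl, x₁, h1.en833 c1⟩ ⟨w1.en833 rfl, x₁, w1'.en833 c1⟩
    ⟨w2.en833 rfl, x₂, w2'.en833 c2⟩ ⟨w3.en833 rfl, x₃, w3'.en833 c3⟩
    with h5 | h5 | h5 | h5 | h5 | h5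
  · exact a1 (by linear_combination -h5)
  · exact a2 (by linear_combination -h5)
  · exact a3 (by linear_combination -h5)
  · exact n12 (by linear_combination h5)
  · exact n13 (by linear_combination h5)
  · exact n23 (by linear_combination h5)

namespace S3W

/-- the end of an exact arc in the direction `o` -/
theorem end_of (H : S3W U T) (hz : DPt T z a b c d) {p : ℂ} (hp : Arc T z p {a, b}) {o : ℝ}
    (ho : o = 1 ∨ o = -1) : ∃ l g, 0 < l ∧ l ≤ Real.pi / 3 ∧ g ∉ T z ∧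
      T (z + (p - z) * cis (-(o * l))) = {a, b, g} ∧
      OEnd T z (z + (p - z) * cis (-(o * l))) (-o) ∧ EE T z (z + (p - z) * cis (-(o * l))) := by
  have h := H.irr
  have hab := Set.ncard_pair hz.ab
  have haz : ({a, b} : Set (Fin 6)) ⊆ T z := by
    rw [hz.pal]
    rintro i (rfl | hi)
    · simp
    · rw [mem_singleton_iff] at hi; subst hi; simp
  obtain ⟨l, hl0, hl3, hlt, hss, hA⟩ := h.arc_side ho hab haz hp.1 hp.mem
  obtain ⟨x, hx⟩ : ∃ x, x = z + (p - z) * cis (-(o * l)) := ⟨_, rfl⟩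
  rw [← hx] at hss hA
  have h3 := H.end3 hz hA hss
  obtain ⟨g, hg, hTx⟩ := h.third hz hA.dist h3 hss
  have hga : g ≠ a := fun h1 => hg (haz (h1 ▸ by simp))
  have hgb : g ≠ b := fun h1 => hg (haz (h1 ▸ by simp))
  have hgc : g ≠ c := fun h1 => hg (by rw [hz.pal, h1]; simp)
  have hgd : g ≠ d := fun h1 => hg (by rw [hz.pal, h1]; simp)
  have hint : T z ∩ T x = {a, b} := by
    rw [hTx]
    ext i
    constructor
    · rintro ⟨h1, h2 | h2 | h2⟩
      · exact Or.inl h2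
      · exact Or.inr h2
      · rw [mem_singleton_iff] at h2
        exact absurd (h2 ▸ h1) hg
    · intro hi
      exact ⟨haz hi, by rcases hi with h1 | h1 <;> [exact Or.inl h1; exact Or.inr (Or.inl h1)]⟩
  have hc3 : (T x).ncard = 3 := by
    rw [hTx]
    exact Set.ncard_eq_three.2 ⟨a, b, g, hz.ab, hga.symm, hgb.symm, rfl⟩
  have hOE : OEnd T z x (-o) := by
    refine ⟨by rcases ho with rfl | rfl <;> norm_num, hA.dist, hz.card, hc3, by rw [hint]; exact hab,
      l, hl0, fun t ht => ?_⟩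
    rw [hint]
    have h1 := hlt (l - t) ⟨by linarith [ht.2], by linarith [ht.1]⟩
    rw [← h1]
    congr 1
    rw [hx, add_sub_cancel_left, mul_assoc, ← cis_add394]
    congr 3
    ring
  refine ⟨l, g, hl0, hl3, hg, ?_⟩
  rw [← hx]
  refine ⟨hTx, hOE, ⟨-o, hOE⟩, ?_⟩
  obtain ⟨p2, hp2⟩ := hz.arc2
  refine ⟨p2, ?_⟩
  have hsd : T z \ T x = {c, d} := by
    rw [hTx, hz.pal]
    ext i
    simp only [Set.mem_sdiff, mem_insert_iff, mem_singleton_iff, not_or]
    constructor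
    · rintro ⟨h1 | h1 | h1 | h1, h2, h3, h4⟩
      · exact absurd h1 h2
      · exact absurd h1 h3
      · exact Or.inl h1
      · exact Or.inr h1
    · rintro (rfl | rfl)
      · exact ⟨by simp, hz.ac.symm, hz.bc.symm, hgc.symm⟩
      · exact ⟨by simp, hz.ad.symm, hz.bd.symm, hgd.symm⟩
  rw [hsd]
  exact hp2

/-- the other end of the arc of an end, unique in its class -/
theorem other (H : S3W U T) (hz : DPt T z a b c d) (hv : EE T z v) (hTv : T v = {a, b, e})
    (hq : EE T z q) (hc : T q = (T v)ᶜ) (uv : ∀ v', EE T z v' → T v' = T v → v' = v)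
    (hall : ∀ g, g ∉ T z → g = e ∨ g = f) (he : e ∉ T z) :
    ∃ v₂, EE T z v₂ ∧ T v₂ = {a, b, f} := by
  have h := H.irr
  obtain ⟨⟨o, hO⟩, -⟩ := id hv
  obtain ⟨ho, hd, -, -, -, ε, hε, hg⟩ := id hO
  have hint : T z ∩ T v = {a, b} := by
    have hea : ({a, b} : Set (Fin 6)) ⊆ T z := by
      rw [hz.pal]
      rintro i (rfl | hi)
      · simp
      · rw [mem_singleton_iff] at hi; subst hi; simp
    rw [hTv]
    ext i
    constructor
    · rintro ⟨h1, h2 | h2 | h2⟩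
      · exact Or.inl h2
      · exact Or.inr h2
      · rw [mem_singleton_iff] at h2
        exact absurd (h2 ▸ h1) he
    · intro hi
      exact ⟨hea hi, by rcases hi with h1 | h1 <;> [exact Or.inl h1; exact Or.inr (Or.inl h1)]⟩
  have haz : ({a, b} : Set (Fin 6)) ⊆ T z := by rw [← hint]; exact inter_subset_left
  have hp : Arc T z (z + (v - z) * cis (-(o * (ε / 2)))) {a, b} := by
    refine ⟨dist_rot hd _, h.pair_open (Set.ncard_pair hz.ab) haz ?_⟩
    rw [hg (ε / 2) ⟨by linarith, by linarith⟩, hint]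
  obtain ⟨l, g, hl0, hl3, hgz, hT, hO', hE⟩ := H.end_of hz hp ho
  refine ⟨_, hE, ?_⟩
  rcases hall g hgz with rfl | rfl
  · exfalso
    have h1 := uv _ hE (by rw [hT, hTv])
    rw [h1] at hO'
    have h2 := hv.ori h H.le4 hq hc hO hO'
    rcases ho with rfl | rfl <;> norm_num at h2
  · exact hT

/-- ends in the same direction from far points are different -/
theorem _root_.Vale.Agent.P032.Six.far_ends {p₁ p₂ : ℂ} {o l₁ l₂ : ℝ} (ho : o = 1 ∨ o = -1)
    (h1 : dist p₁ z = 1) (hl1 : 0 < l₁) (hl1' : l₁ ≤ Real.pi / 3)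
    (hl2 : 0 < l₂) (hl2' : l₂ ≤ Real.pi / 3) (hfar : Real.pi / 3 ≤ dist p₁ p₂) :
    z + (p₁ - z) * cis (-(o * l₁)) ≠ z + (p₂ - z) * cis (-(o * l₂)) := by
  intro heq
  have e1 : p₂ - z = (p₁ - z) * cis (o * (l₂ - l₁)) := by
    have h3 : (p₁ - z) * cis (-(o * l₁)) = (p₂ - z) * cis (-(o * l₂)) := by linear_combination heq
    have h4 : cis (-(o * l₂)) * cis (o * l₂) = 1 := by
      rw [← cis_add394, neg_add_cancel, cis_zero394]
    calc p₂ - z = (p₂ - z) * cis (-(o * l₂)) * cis (o * l₂) := by rw [mul_assoc, h4, mul_one]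
      _ = (p₁ - z) * (cis (-(o * l₁)) * cis (o * l₂)) := by rw [← h3]; ring
      _ = (p₁ - z) * cis (o * (l₂ - l₁)) := by
        rw [← cis_add394]; congr 2; ring
  have e2 : p₁ - p₂ = (p₁ - z) * (1 - cis (o * (l₂ - l₁))) := by linear_combination -e1
  have h3 : dist p₁ p₂ = ‖cis (o * (l₂ - l₁)) - 1‖ := by
    rw [dist_eq_norm, e2, norm_mul, ← dist_eq_norm, h1, one_mul, ← norm_neg]
    congr 1; ring
  have h4 : ‖cis (o * (l₂ - l₁)) - 1‖ ≤ |o * (l₂ - l₁)| := norm_cis_sub_one833 _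
  have h5 : |o * (l₂ - l₁)| = |l₂ - l₁| := by
    rw [abs_mul]
    rcases ho with rfl | rfl <;> norm_num
  have h6 : |l₂ - l₁| < Real.pi / 3 := by
    rw [abs_lt]
    constructor <;> linarith
  rw [h3] at hfar
  rw [h5] at h4
  linarith

/-- **two exact `ab`-arcs** far apart contradict one end of each kind -/
theorem core (H : S3W U T) (hz : DPt T z a b c d) (he : e ∉ T z) (hf : f ∉ T z)
    (hall : ∀ g, g ∉ T z → g = e ∨ g = f) (hv : EE T z v) (hTv : T v = {a, b, e})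
    (hq : EE T z q) (hTq : T q = {c, d, f}) (hc : T q = (T v)ᶜ)
    (uv : ∀ v', EE T z v' → T v' = T v → v' = v) (uq : ∀ q', EE T z q' → T q' = T q → q' = q)
    {m₁ m₂ : ℂ} (h1 : Arc T z m₁ {a, b}) (h2 : Arc T z m₂ {a, b})
    (hfar : Real.pi / 3 ≤ dist m₁ m₂) : False := by
  have h := H.irr
  have hcv : T v = (T q)ᶜ := by rw [hc, compl_compl]
  obtain ⟨v₂, hv₂, hTv₂⟩ := H.other hz hv hTv hq hc uv hall he
  obtain ⟨q₂, hq₂, hTq₂⟩ := H.other (e := f) (f := e) hz.swap hq hTq hv hcv uq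
    (fun g hg => (hall g hg).symm) hf
  -- `T q₂` is complementary to `{a, b, f}`
  have hef : e ≠ f := by
    rintro rfl
    have h5 : e ∈ T v := by rw [hTv]; simp
    have h6 : e ∈ T q := by rw [hTq]; simp
    rw [hc] at h6
    exact h6 h5
  have cases6 : ∀ i, i = a ∨ i = b ∨ i = c ∨ i = d ∨ i = e ∨ i = f := by
    intro i
    by_cases hi : i ∈ T z
    · rw [hz.pal] at hi
      rcases hi with h5 | h5 | h5 | h5
      · exact Or.inl h5
      · exact Or.inr (Or.inl h5)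
      · exact Or.inr (Or.inr (Or.inl h5))
      · exact Or.inr (Or.inr (Or.inr (Or.inl h5)))
    · rcases hall i hi with h5 | h5
      · exact Or.inr (Or.inr (Or.inr (Or.inr (Or.inl h5))))
      · exact Or.inr (Or.inr (Or.inr (Or.inr (Or.inr h5))))
  have hfa : f ≠ a := fun h5 => hf (by rw [hz.pal, h5]; simp)
  have hfb : f ≠ b := fun h5 => hf (by rw [hz.pal, h5]; simp)
  have hfc : f ≠ c := fun h5 => hf (by rw [hz.pal, h5]; simp)
  have hfd : f ≠ d := fun h5 => hf (by rw [hz.pal, h5]; simp)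
  have hea : e ≠ a := fun h5 => he (by rw [hz.pal, h5]; simp)
  have heb : e ≠ b := fun h5 => he (by rw [hz.pal, h5]; simp)
  have hcc : ({a, b, f} : Set (Fin 6)) = (T q₂)ᶜ := by
    rw [hTq₂]
    ext i
    simp only [mem_insert_iff, mem_singleton_iff, mem_compl_iff, not_or]
    constructor
    · rintro (rfl | rfl | rfl)
      · exact ⟨hz.ac, hz.ad, hea.symm⟩
      · exact ⟨hz.bc, hz.bd, heb.symm⟩
      · exact ⟨hfc, hfd, hef.symm⟩
    · rintro ⟨k1, k2, k3⟩
      rcases cases6 i with h5 | h5 | h5 | h5 | h5 | h5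
      · exact Or.inl h5
      · exact Or.inr (Or.inl h5)
      · exact absurd h5 k1
      · exact absurd h5 k2
      · exact absurd h5 k3
      · exact Or.inr (Or.inr h5)
  -- the four ends
  obtain ⟨l1, g1, a1, b1, c1, d1, e1, f1⟩ := H.end_of hz h1 (Or.inl rfl)
  obtain ⟨l2, g2, a2, b2, c2, d2, e2, f2⟩ := H.end_of hz h1 (Or.inr rfl)
  obtain ⟨l3, g3, a3, b3, c3, d3, e3, f3⟩ := H.end_of hz h2 (Or.inl rfl)
  obtain ⟨l4, g4, a4, b4, c4, d4, e4, f4⟩ := H.end_of hz h2 (Or.inr rfl)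
  have n13 := far_ends (z := z) (o := 1) (Or.inl rfl) h1.1 a1 b1 a3 b3 hfar
  have n24 := far_ends (z := z) (o := -1) (Or.inr rfl) h1.1 a2 b2 a4 b4 hfar
  -- complementary ends exist
  have hcomp : ∀ {x : ℂ} {g : Fin 6}, EE T z x → g ∉ T z → T x = {a, b, g} →
      ∃ y, EE T z y ∧ T y = (T x)ᶜ := by
    intro x g hx hg hTx
    rcases hall g hg with rfl | rfl
    · exact ⟨q, hq, by rw [hTx, ← hTv]; exact hc⟩
    · exact ⟨q₂, hq₂, by rw [hTx, hcc, compl_compl]⟩
  have hori : ∀ {x x' : ℂ} {g : Fin 6}, EE T z x → g ∉ T z → T x = {a, b, g} →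
      OEnd T z x (-1) → OEnd T z x' (-(-1)) → x ≠ x' := by
    rintro x _ g hx hg hTx k1 k2 rfl
    obtain ⟨y, hy, hTy⟩ := hcomp hx hg hTx
    have := hx.ori h H.le4 hy hTy k1 k2
    norm_num at this
  have n12 := hori f1 c1 d1 e1 e2
  have n14 := hori f1 c1 d1 e1 e4
  have n32 := hori f3 c3 d3 e3 e2
  have n34 := hori f3 c3 d3 e3 e4
  generalize z + (m₁ - z) * cis (-(1 * l1)) = x₁ at *
  generalize z + (m₁ - z) * cis (-(-1 * l2)) = x₂ at *
  generalize z + (m₂ - z) * cis (-(1 * l3)) = x₃ at *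
  generalize z + (m₂ - z) * cis (-(-1 * l4)) = x₄ at *
  have hone : ∀ {x x' : ℂ}, EE T z x → EE T z x' → T x = {a, b, e} → T x' = {a, b, e} →
      x ≠ x' → False := by
    intro x x' k1 k2 k3 k4 k5
    exact k5 ((uv x k1 (by rw [k3, hTv])).trans (uv x' k2 (by rw [k4, hTv])).symm)
  have htwo : ∀ {x x' x'' : ℂ}, EE T z x → EE T z x' → EE T z x'' → T x = {a, b, f} →
      T x' = {a, b, f} → T x'' = {a, b, f} → x ≠ x' → x ≠ x'' → x' ≠ x'' → False := by
    intro x x' x'' k1 k2 k3 k4 k5 k6 k7 k8 k9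
    exact three_ends h H.le4 hq₂ k1 (by rw [k4, hcc]) k2 (by rw [k5, hcc]) k3 (by rw [k6, hcc])
      k7 k8 k9
  rcases hall g1 c1 with rfl | rfl
  · rcases hall g2 c2 with rfl | rfl
    · exact hone f1 f2 d1 d2 n12
    · rcases hall g3 c3 with rfl | rfl
      · exact hone f1 f3 d1 d3 n13
      · rcases hall g4 c4 with rfl | rfl
        · exact hone f1 f4 d1 d4 n14
        · exact htwo f2 f3 f4 d2 d3 d4 n32.symm n24 n34
  · rcases hall g2 c2 with rfl | rfl
    · rcases hall g3 c3 with rfl | rfl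
      · exact hone f2 f3 d2 d3 n32.symm
      · rcases hall g4 c4 with rfl | rfl
        · exact hone f2 f4 d2 d4 n24
        · exact htwo f1 f3 f4 d1 d3 d4 n13 n14 n34
    · rcases hall g3 c3 with rfl | rfl
      · rcases hall g4 c4 with rfl | rfl
        · exact hone f3 f4 d3 d4 n34
        · exact htwo f1 f2 f4 d1 d2 d4 n12 n14 n24
      · exact htwo f1 f2 f3 d1 d2 d3 n12 n13 n32.symm

end S3W

end Vale.Agent.P032.Six
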