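import Vale.Agent.P032.S5.H80.Rh
import Vale.Agent.P032.S5.H172.Rhombus

/-!
# P032: RULE 2 for every two-pair point, without any bound on orders

`Irr.rule2_top`: if `z = {ab|cd}` and the circle of `z` has a point with the palette `{c, d, f}`, then
at most two points of the circle have the palette `{a, b, e}`.  Nothing is assumed about the orders of
the corners `x + q - z`.
-/

set_option autoImplicit false

open Set Filter Topology Metric

noncomputable section

namespace Vale.Agent.P032.Six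

variable {U : Fin 6 → Set ℂ} {T : ℂ → Set (Fin 6)} {z q x x' x₁ x₂ x₃ : ℂ} {a b c d e f : Fin 6}

/-- no `{c, d}`-arcs of the circle of a corner at `q` -/
theorem Cfg.noAcc833 (C : Cfg T z x q a b c d e f) (h : Irr U T) :
    ¬ Acc T (x + q - z) {c, d} q := by
  intro hA
  refine h.strip (u := q) (u' := x) (q := z) (p := x + q - z) (P := {c, d}) C.cV
    C.VQ.symm ?_ ?_ ?_ ?_ ?_ (fun h0 => C.zw h h0.symm) hA
  · rw [dist_comm]; exact C.hQ
  · rw [dist_comm]; exact C.hV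
  · intro h0; exact C.anti h (by linear_combination h0)
  · rw [C.dp.pal, C.TV]
    rintro i (rfl | rfl | rfl | h0)
    · exact Or.inr (by simp)
    · exact Or.inr (by simp)
    · exact Or.inl (by simp)
    · rw [mem_singleton_iff] at h0; subst h0; exact Or.inl (by simp)
  · intro h0
    have h1 : f ∈ T q := by rw [C.TQ]; simp
    rw [h0] at h1
    rcases h1 with h1 | h1
    · exact C.fc h1
    · exact C.fd h1

theorem Cfg.f_mem833 (C : Cfg T z x q a b c d e f) (h : Irr U T) : f ∈ T (x + q - z) := by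
  have h1 := C.swap.e_mem h
  rwa [add_comm q x] at h1

/-- a corner with all three colours of `q` sees the only `f`-partners of `q` -/
theorem Cfg.line833 (C : Cfg T z x q a b c d e f) (h : Irr U T) (hc : c ∈ T (x + q - z))
    (hd : d ∈ T (x + q - z)) (C' : Cfg T z x' q a b c d e f) (hne : x' ≠ x) :
    x' + q - z + (x + q - z) = 2 * q := by
  have g1 : T q ⊆ insert f {c, d} := by
    rw [C.TQ]
    intro i hi
    simp only [mem_insert_iff, mem_singleton_iff] at hi ⊢
    tauto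
  have g2 : ({c, d} : Set (Fin 6)) ⊆ T (x + q - z) := by
    rintro i (rfl | h0)
    · exact hc
    · rw [mem_singleton_iff] at h0; subst h0; exact hd
  have h1 : ∀ᶠ y in 𝓝[sphere (x + q - z) 1] q, f ∈ T y := by
    rcases h.acc_or g1 g2 (Set.ncard_pair C.dp.cd).le with h1 | h1
    · exact absurd h1 (C.noAcc833 h)
    · exact h1
  rcases h.mx.partner_line (u := x + q - z) (p := q) (t := f) (v := x' + q - z)
    (by rw [dist_comm]; exact C.wQ) (h1.mono fun y hy => h.sub y hy)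
    (by rw [dist_comm]; exact C'.wQ) (h.sub _ (C'.f_mem833 h)) with h2 | h2
  · exact absurd (by linear_combination h2) hne
  · exact h2

/-- two corners with the same pair at `q` coincide -/
theorem Cfg.same833 (C : Cfg T z x q a b c d e f) (C' : Cfg T z x' q a b c d e f) (h : Irr U T)
    {P : Set (Fin 6)} {r : Fin 6} (hTu : T q = insert r P) (hr : r ∉ P) (hP2 : P.ncard ≤ 2)
    (hP0 : P.Nonempty) (h1 : T (x + q - z) ∩ T q = P) (h2 : T (x' + q - z) ∩ T q = P) :
    x = x' := by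
  have cov : ∀ {y : ℂ}, Cfg T z y q a b c d e f → ∀ i, i ∈ T q ∨ i ∈ T y := by
    intro y D i
    rw [D.TQ, D.TV]
    rcases D.cover i with rfl | rfl | rfl | rfl | rfl | rfl <;> simp
  have h3 := h.rh_unique (u := q) (u' := x') (q := x' + q - z) (u'' := x) (p := x + q - z) (P := P)
    (r := r) C'.cV (cov C') C'.VQ.symm C'.wQ C'.wV
    (fun h0 => C'.anti h (by linear_combination -h0)) C.cV (cov C) C.VQ.symm C.wQ C.wV
    (fun h0 => C.anti h (by linear_combination -h0)) hTu hr hP2 hP0 h2 h1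
  linear_combination h3

/-- **RULE 2**, no bound on orders -/
theorem Irr.rule2_top (h : Irr U T) (hz : DPt T z a b c d)
    (nd : [a, b, c, d, e, f].Nodup) (hq : dist q z = 1) (hTq : T q = {c, d, f})
    (d1 : dist x₁ z = 1) (c1 : T x₁ = {a, b, e}) (d2 : dist x₂ z = 1) (c2 : T x₂ = {a, b, e})
    (d3 : dist x₃ z = 1) (c3 : T x₃ = {a, b, e}) (n12 : x₁ ≠ x₂) (n13 : x₁ ≠ x₃) (n23 : x₂ ≠ x₃) :
    False := by
  have nd' : ((a ≠ b ∧ a ≠ c ∧ a ≠ d ∧ a ≠ e ∧ a ≠ f) ∧ (b ≠ c ∧ b ≠ d ∧ b ≠ e ∧ b ≠ f) ∧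
      (c ≠ d ∧ c ≠ e ∧ c ≠ f) ∧ (d ≠ e ∧ d ≠ f) ∧ e ≠ f) := by
    simpa [and_assoc, not_or] using nd
  obtain ⟨⟨ab, ac, ad, ae, af⟩, ⟨bc, bd, be, bf⟩, ⟨cd, ce, cf⟩, ⟨de, df⟩, ef⟩ := nd'
  have he : e ∉ T z := by rw [hz.pal]; simp [Ne.symm ae, Ne.symm be, Ne.symm ce, Ne.symm de]
  have hf : f ∉ T z := by rw [hz.pal]; simp [Ne.symm af, Ne.symm bf, Ne.symm cf, Ne.symm df]
  have key : ∀ x, dist x z = 1 → T x = {a, b, e} → Cfg T z x q a b c d e f :=
    fun x hx hTx => ⟨hz, hx, hq, hTx, hTq, he, hf, ef⟩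
  have C1 := key x₁ d1 c1
  have C2 := key x₂ d2 c2
  have C3 := key x₃ d3 c3
  -- a corner with all colours of `q`
  have big : ∀ {y₁ y₂ y₃ : ℂ}, Cfg T z y₁ q a b c d e f → Cfg T z y₂ q a b c d e f →
      Cfg T z y₃ q a b c d e f → y₁ ≠ y₂ → y₁ ≠ y₃ → y₂ ≠ y₃ →
      ¬ (c ∈ T (y₁ + q - z) ∧ d ∈ T (y₁ + q - z)) := by
    rintro y₁ y₂ y₃ D1 D2 D3 m12 m13 m23 ⟨hc, hd⟩
    have g2 := D1.line833 h hc hd D2 m12.symm
    have g3 := D1.line833 h hc hd D3 m13.symm
    exact m23 (by linear_combination g2 - g3)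
  have b1 := big C1 C2 C3 n12 n13 n23
  have b2 := big C2 C1 C3 n12.symm n23 n13
  have b3 := big C3 C1 C2 n13.symm n23.symm n12
  -- the pair at `q`
  have pr : ∀ {y : ℂ}, Cfg T z y q a b c d e f → ¬ (c ∈ T (y + q - z) ∧ d ∈ T (y + q - z)) →
      T (y + q - z) ∩ T q = {c, f} ∨ T (y + q - z) ∩ T q = {d, f} := by
    intro y D hb
    have hfm := D.f_mem833 h
    obtain ⟨t, ht, htq, htf⟩ := D.swap.two_V h f
    rw [add_comm q y] at ht
    rw [hTq] at htq ⊢
    rcases htq with rfl | rfl | htq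
    · left
      ext i
      simp only [mem_inter_iff, mem_insert_iff, mem_singleton_iff]
      constructor
      · rintro ⟨g1, g2 | g2 | g2⟩
        · exact Or.inl g2
        · exact absurd ⟨ht, g2 ▸ g1⟩ hb
        · exact Or.inr g2
      · rintro (rfl | rfl)
        · exact ⟨ht, Or.inl rfl⟩
        · exact ⟨hfm, Or.inr (Or.inr rfl)⟩
    · right
      ext i
      simp only [mem_inter_iff, mem_insert_iff, mem_singleton_iff]
      constructor
      · rintro ⟨g1, g2 | g2 | g2⟩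
        · exact absurd ⟨g2 ▸ g1, ht⟩ hb
        · exact Or.inl g2
        · exact Or.inr g2
      · rintro (rfl | rfl)
        · exact ⟨ht, Or.inr (Or.inl rfl)⟩
        · exact ⟨hfm, Or.inr (Or.inr rfl)⟩
    · rw [mem_singleton_iff] at htq
      exact absurd htq htf
  have ec : T q = insert d {c, f} := by
    rw [hTq]; ext i; simp only [mem_insert_iff, mem_singleton_iff]; tauto
  have ed : T q = insert c {d, f} := by
    rw [hTq]
  have rc : d ∉ ({c, f} : Set (Fin 6)) := by simp [cd.symm, df]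
  have rd : c ∉ ({d, f} : Set (Fin 6)) := by simp [cd, cf]
  have two : ∀ {y y' : ℂ}, Cfg T z y q a b c d e f → Cfg T z y' q a b c d e f → y ≠ y' →
      (T (y + q - z) ∩ T q = {c, f} → T (y' + q - z) ∩ T q = {c, f} → False) ∧
      (T (y + q - z) ∩ T q = {d, f} → T (y' + q - z) ∩ T q = {d, f} → False) := by
    intro y y' D D' hne
    constructor
    · intro g1 g2
      exact hne (D.same833 D' h ec rc (Set.ncard_pair cf).le ⟨c, by simp⟩ g1 g2)
    · intro g1 g2
      exact hne (D.same833 D' h ed rd (Set.ncard_pair df).le ⟨d, by simp⟩ g1 g2)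
  have t12 := two C1 C2 n12
  have t13 := two C1 C3 n13
  have t23 := two C2 C3 n23
  rcases pr C1 b1 with p1 | p1 <;> rcases pr C2 b2 with p2 | p2 <;> rcases pr C3 b3 with p3 | p3
  · exact t12.1 p1 p2
  · exact t12.1 p1 p2
  · exact t13.1 p1 p3
  · exact t23.2 p2 p3
  · exact t23.1 p2 p3
  · exact t13.2 p1 p3
  · exact t12.2 p1 p2
  · exact t12.2 p1 p2

/-- **RULE 2**, as a bound for the number of points, no bound on orders -/
theorem Irr.rule2_ncard_top (h : Irr U T) (hz : DPt T z a b c d)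
    (nd : [a, b, c, d, e, f].Nodup) (hq : dist q z = 1) (hTq : T q = {c, d, f}) :
    {x : ℂ | dist x z = 1 ∧ T x = {a, b, e}}.Finite ∧
      {x : ℂ | dist x z = 1 ∧ T x = {a, b, e}}.ncard ≤ 2 := by
  have key : ∀ x₁ x₂ x₃, x₁ ∈ {x : ℂ | dist x z = 1 ∧ T x = {a, b, e}} →
      x₂ ∈ {x : ℂ | dist x z = 1 ∧ T x = {a, b, e}} →
      x₃ ∈ {x : ℂ | dist x z = 1 ∧ T x = {a, b, e}} → x₁ = x₂ ∨ x₁ = x₃ ∨ x₂ = x₃ := by
    intro x₁ x₂ x₃ h1 h2 h3
    by_contra hcon
    push Not at hcon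
    exact h.rule2_top hz nd hq hTq h1.1 h1.2 h2.1 h2.2 h3.1 h3.2 hcon.1 hcon.2.1 hcon.2.2
  obtain ⟨S, hS⟩ : ∃ S, S = {x : ℂ | dist x z = 1 ∧ T x = {a, b, e}} := ⟨_, rfl⟩
  rw [← hS] at key ⊢
  have hsub : ∃ x y, S ⊆ {x, y} := by
    rcases S.eq_empty_or_nonempty with h1 | ⟨x, hx⟩
    · exact ⟨0, 0, by rw [h1]; exact Set.empty_subset _⟩
    by_cases h2 : ∃ y ∈ S, y ≠ x
    · obtain ⟨y, hy, hyx⟩ := h2
      refine ⟨x, y, fun w hw => ?_⟩
      rcases key x y w hx hy hw with h3 | h3 | h3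
      · exact absurd h3.symm hyx
      · exact Or.inl h3.symm
      · exact Or.inr h3.symm
    · push Not at h2
      exact ⟨x, x, fun w hw => Or.inl (h2 w hw)⟩
  obtain ⟨x, y, hxy⟩ := hsub
  have hfin : S.Finite := (Set.toFinite {x, y}).subset hxy
  refine ⟨hfin, (Set.ncard_le_ncard hxy (Set.toFinite _)).trans ?_⟩
  have := Set.ncard_insert_le x ({y} : Set ℂ)
  rw [Set.ncard_singleton] at this
  exact this

end Vale.Agent.P032.Six
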