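import Vale.Agent.P032.R2.H833.S3A

/-!
# P032: the flanks of a lock pair

`z = {ab|cd}`, `y = {ab|ef}` at distance one, `p` a common point of the two circles (a flank), `p' =
y + z - p` the other flank.  If `e, f ∈ T p` then both flanks are ends of exact `ef`-arcs of `S(y)` and
the translates `z + p - y`, `z + p' - y` are limits of exact `ab`-arcs of `S(z)`.
-/

open Set Filter Topology Metric

noncomputable section

namespace Vale.Agent.P032.Six

open S5.H767 (Ex ex_self dist_of_closure sub_of_closure line_free)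

variable {U : Fin 6 → Set ℂ} {T : ℂ → Set (Fin 6)}

theorem acc_of_closure {z p : ℂ} {P : Set (Fin 6)} (hp : p ∈ closure (Ex T z P)) : Acc T z P p := by
  intro V hV
  obtain ⟨q, hq, hqz, hqe⟩ := mem_closure_iff_nhds.1 hp V hV
  exact ⟨q, hq, hqz, hqe⟩

theorem closure_of_acc {z p : ℂ} {P : Set (Fin 6)} (hp : Acc T z P p) : p ∈ closure (Ex T z P) := by
  rw [mem_closure_iff_nhds]
  intro V hV
  obtain ⟨q, hq, hqz, hqe⟩ := hp V hV
  exact ⟨q, hq, hqz, hqe⟩

namespace Lock

variable {z y p : ℂ} {a b c d e f : Fin 6}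

/-- a flank is off the line through the centres -/
theorem off (L : Lock T z y a b c d e f) (hz : dist p z = 1) : y ≠ z ∧ y + z ≠ 2 * p := by
  constructor
  · intro h1
    have := L.d1
    rw [h1, dist_self] at this
    exact zero_ne_one this
  · intro h1
    have h2 : y - z = 2 * (p - z) := by linear_combination h1
    have h3 : dist y z = 2 := by
      rw [dist_eq_norm, h2, norm_mul, ← dist_eq_norm, hz]; simp
    rw [L.d1] at h3
    norm_num at h3

/-- the other flank -/
theorem flank' (_ : Lock T z y a b c d e f) (hz : dist p z = 1) (hy : dist p y = 1) :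
    dist (y + z - p) z = 1 ∧ dist (y + z - p) y = 1 := by
  constructor
  · rw [dist_comm, dist_eq_norm, show z - (y + z - p) = p - y by ring, ← dist_eq_norm]; exact hy
  · rw [dist_comm, dist_eq_norm, show y - (y + z - p) = p - z by ring, ← dist_eq_norm]; exact hz

/-- a flank is not a limit of exact `ab`-arcs of `S(z)` -/
theorem not_ab (L : Lock T z y a b c d e f) (H : S3W U T) (hz : dist p z = 1)
    (hy : dist p y = 1) : p ∉ closure (Ex T z {a, b}) := by
  intro hp
  have h := H.irr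
  have hab := sub_of_closure h hp
  have haz : ({a, b} : Set (Fin 6)) ⊆ T z := by
    rintro i (rfl | hi)
    · exact L.az
    · rw [mem_singleton_iff] at hi; rw [hi]; exact L.bz
  obtain ⟨o1, o2⟩ := L.off hz
  by_cases hsub : T p ⊆ {a, b}
  · have harc := h.pair_open (Set.ncard_pair L.hz.ab) haz hsub
    exact line_free h hz (t := a) (harc.mono fun q hq => by rw [hq]; simp) hy o1 o2
      (h.sub _ L.ay)
  · have hss : {a, b} ⊂ T p := ⟨hab, hsub⟩
    have h3 := H.end3 L.hz (acc_of_closure hp) hss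
    obtain ⟨g, hg, hTp⟩ := h.third L.hz hz h3 hss
    have hcp : c ∉ T p := by
      rw [hTp]
      rintro (h1 | h1 | h1)
      · exact L.hz.ac h1.symm
      · exact L.hz.bc h1.symm
      · exact hg (by rw [← h1]; exact L.cz)
    have hdp : d ∉ T p := by
      rw [hTp]
      rintro (h1 | h1 | h1)
      · exact L.hz.ad h1.symm
      · exact L.hz.bd h1.symm
      · exact hg (by rw [← h1]; exact L.dz)
    rcases H.inside L.hy hy (L.in_y hcp hdp) with h1 | h1
    · exact hsub h1.subset
    · have : a ∈ T p := hab (by simp)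
      rw [h1] at this
      obtain ⟨⟨ab, ac, ad, ae, af⟩, -⟩ := L.ne_all
      simp [ae, af] at this

/-- **dichotomy at a flank** -/
theorem dich (L : Lock T z y a b c d e f) (H : S3W U T) (hz : dist p z = 1)
    (hy : dist p y = 1) : p ∈ closure (Ex T z {c, d}) ∨ (e ∈ T p ∧ f ∈ T p) := by
  by_contra hcon
  push Not at hcon
  obtain ⟨hcd, hef⟩ := hcon
  have h := H.irr
  have hab := L.not_ab H hz hy
  have C := S5.H767.ctr_of_dpt h L.hz L.nd
  obtain ⟨o1, o2⟩ := L.off hz
  have h1 : ∀ᶠ q in 𝓝[sphere z 1] p, q ∉ closure (Ex T z {a, b}) :=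
    mem_nhdsWithin_of_mem_nhds (isClosed_closure.isOpen_compl.mem_nhds hab)
  have h2 : ∀ᶠ q in 𝓝[sphere z 1] p, q ∉ closure (Ex T z {c, d}) :=
    mem_nhdsWithin_of_mem_nhds (isClosed_closure.isOpen_compl.mem_nhds hcd)
  by_cases he : e ∈ T p
  · have hf := hef he
    have h3 : ∀ᶠ q in 𝓝[sphere z 1] p, f ∉ T q :=
      mem_nhdsWithin_of_mem_nhds ((h.closed f).isOpen_compl.mem_nhds hf)
    refine line_free h hz (t := e) ?_ hy o1 o2 (h.sub _ L.ey)
    filter_upwards [h1, h2, h3, self_mem_nhdsWithin] with q k1 k2 k3 k4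
    obtain ⟨l, hl⟩ := C.cover (y := q) k4
    fin_cases l
    · exact hl.2
    · exact absurd hl.2 k3
    · exact absurd hl k1
    · exact absurd hl k2
  · have h3 : ∀ᶠ q in 𝓝[sphere z 1] p, e ∉ T q :=
      mem_nhdsWithin_of_mem_nhds ((h.closed e).isOpen_compl.mem_nhds he)
    refine line_free h hz (t := f) ?_ hy o1 o2 (h.sub _ L.fy)
    filter_upwards [h1, h2, h3, self_mem_nhdsWithin] with q k1 k2 k3 k4
    obtain ⟨l, hl⟩ := C.cover (y := q) k4
    fin_cases l
    · exact absurd hl.2 k3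
    · exact hl.2
    · exact absurd hl k1
    · exact absurd hl k2

/-- the translate of a limit of exact `ef`-arcs of `S(y)` -/
theorem tr_acc (L : Lock T z y a b c d e f) (H : S3W U T) (hp : p ∈ closure (Ex T y {e, f})) :
    z + p - y ∈ closure (Ex T z {a, b}) := by
  have h := H.irr
  rw [mem_closure_iff_nhds]
  intro V hV
  have hcont : Tendsto (fun q : ℂ => z + q - y) (𝓝 p) (𝓝 (z + p - y)) := by
    have : Continuous fun q : ℂ => z + q - y := by fun_prop
    exact this.tendsto p
  obtain ⟨q, hqV, hq⟩ := mem_closure_iff_nhds.1 hp _ (hcont hV)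
  have hT : T (z + q - y) = {a, b} := L.symm.rule H hq
  have hd : dist (z + q - y) z = 1 := (L.symm.dist_tr hq.1).1
  have haz : ({a, b} : Set (Fin 6)) ⊆ T z := by
    rintro i (rfl | hi)
    · exact L.az
    · rw [mem_singleton_iff] at hi; rw [hi]; exact L.bz
  exact ⟨z + q - y, hqV, hd, h.pair_open (Set.ncard_pair L.hz.ab) haz hT.subset⟩

/-- a limit of exact `ef`-arcs of `S(y)`: the other flank has not both `c, d` -/
theorem not_cd' (L : Lock T z y a b c d e f) (H : S3W U T) (hp : p ∈ closure (Ex T y {e, f}))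
    (hc : c ∈ Pal U (y + z - p)) (hd : d ∈ Pal U (y + z - p)) : False := by
  have h := H.irr
  have h1 := L.tr_acc H hp
  have h2 := sub_of_closure h h1
  have e1 : 2 * z - (z + p - y) = y + z - p := by ring
  exact h.anti L.hz (dist_of_closure h1) (h.sub _ (h2 (by simp))) (h.sub _ (h2 (by simp)))
    (by rw [e1]; exact hc) (by rw [e1]; exact hd)

/-- ... and is a limit of exact `ef`-arcs too -/
theorem ef' (L : Lock T z y a b c d e f) (H : S3W U T) (hz : dist p z = 1) (hy : dist p y = 1)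
    (hp : p ∈ closure (Ex T y {e, f})) : y + z - p ∈ closure (Ex T y {e, f}) := by
  have h := H.irr
  obtain ⟨g1, g2⟩ := L.flank' hz hy
  rcases L.symm.dich H g2 g1 with h1 | ⟨h1, h2⟩
  · exact h1
  · exact (L.not_cd' H hp (h.sub _ h1) (h.sub _ h2)).elim

/-- ... and the flank itself has not both `c, d` -/
theorem not_cd (L : Lock T z y a b c d e f) (H : S3W U T) (hz : dist p z = 1)
    (hy : dist p y = 1) (hp : p ∈ closure (Ex T y {e, f})) (hc : c ∈ Pal U p)
    (hd : d ∈ Pal U p) : False := by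
  have h1 := L.ef' H hz hy hp
  have e1 : y + z - (y + z - p) = p := by ring
  exact L.not_cd' H h1 (by rw [e1]; exact hc) (by rw [e1]; exact hd)

/-- if one flank is `{c, d, e, f}` then so is the other one -/
theorem t1_step (L : Lock T z y a b c d e f) (H : S3W U T) (hz : dist p z = 1)
    (hy : dist p y = 1) (hc : c ∈ T p) (hd : d ∈ T p) (he : e ∈ T p) (hf : f ∈ T p) :
    (c ∈ T (y + z - p) ∧ d ∈ T (y + z - p)) ∧ e ∈ T (y + z - p) ∧ f ∈ T (y + z - p) := by
  have h := H.irr
  obtain ⟨g1, g2⟩ := L.flank' hz hy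
  have e1 : y + z - (y + z - p) = p := by ring
  have e2 : z + y - (y + z - p) = p := by ring
  constructor
  · rcases L.symm.dich H g2 g1 with h1 | h1
    · have h2 := L.ef' H g1 g2 h1
      rw [e1] at h2
      exact (L.not_cd H hz hy h2 (h.sub _ hc) (h.sub _ hd)).elim
    · exact h1
  · rcases L.dich H g1 g2 with h1 | h1
    · have h2 := L.symm.ef' H g2 g1 h1
      rw [e2] at h2
      exact (L.symm.not_cd H hy hz h2 (h.sub _ he) (h.sub _ hf)).elim
    · exact h1

end Lock

/-- the contact with the colours `a, b, e, f` -/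
theorem S3W.lock (H : S3W U T) {z y : ℂ} {a b c d e f : Fin 6} (hz : DPt T z a b c d)
    (hy : dist y z = 1) (nd : [a, b, c, d, e, f].Nodup) (ha : a ∈ T y) (hb : b ∈ T y)
    (he : e ∈ T y) (hf : f ∈ T y) : Lock T z y a b c d e f := by
  have hn := nd
  simp only [List.nodup_cons, List.mem_cons, List.not_mem_nil, or_false, not_or, List.nodup_nil,
    and_true, not_false_eq_true] at hn
  obtain ⟨⟨ab, ac, ad, ae, af⟩, ⟨bc, bd, be, bf⟩, ⟨cd, ce, cf⟩, ⟨de, df⟩, ef⟩ := hn
  have hs : ({a, b, e, f} : Set (Fin 6)) ⊆ T y := by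
    rintro i (rfl | rfl | rfl | hi)
    · exact ha
    · exact hb
    · exact he
    · rw [mem_singleton_iff] at hi; rw [hi]; exact hf
  have hc : ({a, b, e, f} : Set (Fin 6)).ncard = 4 := by
    rw [Set.ncard_insert_of_notMem, Set.ncard_insert_of_notMem, Set.ncard_pair ef]
    · simp [be, bf]
    · simp [ab, ae, af]
  have h4 := H.le4 y
  have hT : T y = {a, b, e, f} :=
    (Set.eq_of_subset_of_ncard_le hs (by omega) (Set.toFinite _)).symm
  rcases H.tie hz hy (by rw [hT, hc]) with ⟨-, m, n, hD⟩ | ⟨h1, -⟩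
  · refine ⟨hz, ?_, hy, nd⟩
    have hmn : ∀ i, i ∈ T y → i ≠ a → i ≠ b → i = e ∨ i = f := by
      intro i hi hia hib
      rw [hT] at hi
      rcases hi with h1 | h1 | h1 | h1
      · exact absurd h1 hia
      · exact absurd h1 hib
      · exact Or.inl h1
      · exact Or.inr h1
    have hm := hmn m (by rw [hD.pal]; simp) hD.ac.symm hD.bc.symm
    have hn := hmn n (by rw [hD.pal]; simp) hD.ad.symm hD.bd.symm
    rcases hm with rfl | rfl <;> rcases hn with rfl | rfl
    · exact absurd rfl hD.cd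
    · exact hD
    · exact hD.swap34
    · exact absurd rfl hD.cd
  · exfalso
    have h2 : a ∈ T y ∩ T z := ⟨ha, by rw [hz.pal]; simp⟩
    rw [h1] at h2
    rcases h2 with h2 | h2
    · exact ac h2
    · exact ad h2

namespace Lock

variable {z y p : ℂ} {a b c d e f : Fin 6}

theorem nd_cdab (L : Lock T z y a b c d e f) : [c, d, a, b, e, f].Nodup := by
  obtain ⟨⟨ab, ac, ad, ae, af⟩, ⟨bc, bd, be, bf⟩, ⟨cd, ce, cf⟩, ⟨de, df⟩, ef⟩ := L.ne_all
  simp [ab, ae, af, be, bf, cd, ce, cf, de, df, ef, ac.symm, ad.symm, bc.symm, bd.symm]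

/-- **no flank has the four colours `c, d, e, f`** -/
theorem no_t1 (L : Lock T z y a b c d e f) (H : S3W U T) (hz : dist p z = 1)
    (hy : dist p y = 1) (hc : c ∈ T p) (hd : d ∈ T p) (he : e ∈ T p) (hf : f ∈ T p) : False := by
  have h := H.irr
  -- the pair `z, p` with flank `y`
  have L2 : Lock T z p c d a b e f := H.lock L.hz.swap hz L.nd_cdab hc hd he hf
  have hyp : dist y p = 1 := by rw [dist_comm]; exact hy
  obtain ⟨⟨k1, k2⟩, k3, k4⟩ := L2.t1_step H (p := y) L.d1 hyp L.ay L.by' L.ey L.fy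
  obtain ⟨g1, g2⟩ := L2.flank' (p := y) L.d1 hyp
  have L3 : Lock T z (p + z - y) a b c d e f := H.lock L.hz g1 L.nd k1 k2 k3 k4
  obtain ⟨⟨m1, m2⟩, -⟩ := L3.t1_step H (p := p) hz (by rw [dist_comm]; exact g2) hc hd he hf
  have e1 : p + z - y + z - p = 2 * z - y := by ring
  rw [e1] at m1 m2
  exact L.anti_cd h (h.sub _ m1) (h.sub _ m2)

/-- **swapped flank** -/
theorem swapped (L : Lock T z y a b c d e f) (H : S3W U T) (hz : dist p z = 1)
    (hy : dist p y = 1) (he : e ∈ T p) (hf : f ∈ T p) :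
    (p ∈ closure (Ex T y {e, f}) ∧ y + z - p ∈ closure (Ex T y {e, f})) ∧
      z + p - y ∈ closure (Ex T z {a, b}) ∧ 2 * z - p ∈ closure (Ex T z {a, b}) := by
  have h1 : p ∈ closure (Ex T y {e, f}) := by
    rcases L.symm.dich H hy hz with h1 | ⟨h1, h2⟩
    · exact h1
    · exact (L.no_t1 H hz hy h1 h2 he hf).elim
  have h2 := L.ef' H hz hy h1
  have h3 := L.tr_acc H h2
  have e1 : z + (y + z - p) - y = 2 * z - p := by ring
  rw [e1] at h3
  exact ⟨⟨h1, h2⟩, L.tr_acc H h1, h3⟩

end Lock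

end Vale.Agent.P032.Six
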