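import Vale.Agent.P032.S5.H12.Fld2
import Vale.Agent.P032.R2.H784.Hub
import Vale.Agent.P032.R2.H479.Shrink

/-!
# P032: the core interface between the ring analysis and the geometry of the hubs

`HubC U T`: irredundant palettes with at most four colours; exact arcs of two-pair points stop at
points of three colours (`stop`), all four kinds of full ends exist (`full`), no class with one end
of both types (`two`), no triangle of pairwise rhombic centres (`tri`).
-/

open Set Filter Topology Metric

noncomputable section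

namespace Vale.Agent.P032.Six

/-- the core interface -/
structure HubC (U : Fin 6 → Set ℂ) (T : ℂ → Set (Fin 6)) : Prop where
  irr : Irr U T
  le4 : ∀ x, (T x).ncard ≤ 4
  /-- exact arcs stop only at points of three colours, the third one missing at the centre -/
  stop : ∀ {z : ℂ} {a b c d : Fin 6}, DPt T z a b c d → ∀ {v : ℂ}, Acc T z {a, b} v →
    {a, b} ⊂ T v → ∃ e, e ∉ T z ∧ T v = {a, b, e}
  /-- all four kinds of full ends exist -/
  full : ∀ {z : ℂ} {a b c d e : Fin 6}, DPt T z a b c d → e ∉ T z → ∃ v, EE T z v ∧ T v = {a, b, e}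
  /-- a class with one end of both types does not occur -/
  two : ∀ {z v q : ℂ}, EE T z v → EE T z q → T q = (T v)ᶜ →
    (∃ v', v' ≠ v ∧ EE T z v' ∧ T v' = T v) ∨ ∃ q', q' ≠ q ∧ EE T z q' ∧ T q' = T q
  /-- no triangle of pairwise rhombic centres at a full end -/
  tri : ∀ {v c₁ c₂ c₃ : ℂ}, EE T c₁ v → EE T c₂ v → EE T c₃ v → c₁ ≠ c₂ → c₁ ≠ c₃ → c₂ ≠ c₃ →
    EE T c₁ (c₁ + c₂ - v) → T (c₁ + c₂ - v) = (T v)ᶜ → EE T c₁ (c₁ + c₃ - v) →
    T (c₁ + c₃ - v) = (T v)ᶜ → EE T c₂ (c₂ + c₃ - v) → T (c₂ + c₃ - v) = (T v)ᶜ → False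

variable {U : Fin 6 → Set ℂ} {T : ℂ → Set (Fin 6)}

/-- the third colour of a point of three colours on the circle of a two-pair point, if it has the
colours of one pair -/
theorem Irr.third (h : Irr U T) {x v : ℂ} {a b c d : Fin 6} (hx : DPt T x a b c d)
    (hv : dist v x = 1) (hv3 : (T v).ncard ≤ 3) (hss : {a, b} ⊂ T v) :
    ∃ g, g ∉ T x ∧ T v = {a, b, g} := by
  obtain ⟨g, hgv, hgP⟩ := exists_of_ssubset hss
  have hc3 : ({a, b, g} : Set (Fin 6)).ncard = 3 := by
    refine Set.ncard_eq_three.2 ⟨a, b, g, hx.ab, ?_, ?_, rfl⟩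
    · rintro rfl; exact hgP (by simp)
    · rintro rfl; exact hgP (by simp)
  have hTv : T v = {a, b, g} := by
    symm
    refine Set.eq_of_subset_of_ncard_le ?_ (by rw [hc3]; exact hv3) (Set.toFinite _)
    rintro i (rfl | rfl | hi)
    · exact hss.1 (by simp)
    · exact hss.1 (by simp)
    · rw [mem_singleton_iff] at hi; rw [hi]; exact hgv
  refine ⟨g, fun hgx => ?_, hTv⟩
  have hgab : g = c ∨ g = d := by
    rw [hx.pal] at hgx
    rcases hgx with h1 | h1 | h1 | h1
    · exact absurd (Or.inl h1) hgP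
    · exact absurd (Or.inr h1) hgP
    · exact Or.inl h1
    · exact Or.inr h1
  obtain ⟨p1, hp1⟩ := hx.arc2
  obtain ⟨y, hy, hyv, hyv2⟩ := hp1.exists_off_line (y := v)
  have hyT : T y = {c, d} := hy.mem
  rcases hgab with rfl | rfl
  · refine h.third_notMem (z := x) (v := v) (q := y) (d := d) hv hv3 ?_ hy.1
      (h.sub _ (by rw [hyT]; simp)) hyv hyv2
    rw [hx.pal, hTv]
    rintro i (rfl | rfl | rfl | hi)
    · right; simp
    · right; simp
    · right; simp
    · rw [mem_singleton_iff] at hi; subst hi; left; rfl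
  · refine h.third_notMem (z := x) (v := v) (q := y) (d := c) hv hv3 ?_ hy.1
      (h.sub _ (by rw [hyT]; simp)) hyv hyv2
    rw [hx.pal, hTv]
    rintro i (rfl | rfl | rfl | hi)
    · right; simp
    · right; simp
    · left; rfl
    · rw [mem_singleton_iff] at hi; subst hi; right; simp

/-- points with complementary palettes of three colours are full ends -/
theorem Irr.ee_of_full (h : Irr U T) (h4 : ∀ z, (T z).ncard ≤ 4) {z v q : ℂ}
    {a b c d e f : Fin 6} (hz : DPt T z a b c d) (hv : dist v z = 1) (hq : dist q z = 1)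
    (hTv : T v = {a, b, e}) (hTq : T q = {c, d, f}) (he : e ∉ T z) (hf : f ∉ T z) (hef : e ≠ f) :
    EE T z v := by
  have C : Cfg T z v q a b c d e f := ⟨hz, hv, hq, hTv, hTq, he, hf, hef⟩
  rcases C.normal h (h4 _) with N | N | N | N
  · exact N.ee h
  · exact N.ee h
  · exact N.ee h
  · exact N.ee h

/-- the old frame delivers the core interface -/
theorem HubW.toC (H : HubW U T) : HubC U T where
  irr := H.irr
  le4 := H.le4
  stop := fun {z a b c d} hz {v} hA hss => H.irr.third hz hA.dist (H.end3 hz hA hss) hss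
  full := by
    intro z a b c d e hz he
    have hc : ((T z)ᶜ).ncard = 2 := by
      have h1 := Set.ncard_add_ncard_compl (T z)
      rw [Nat.card_eq_fintype_card, Fintype.card_fin, hz.card] at h1
      omega
    obtain ⟨f, hfe, hfc⟩ := ncard_two_other hc (p := e) he
    have hf : f ∉ T z := by
      have : f ∈ (T z)ᶜ := by rw [hfc]; simp
      exact this
    obtain ⟨v, hTv, hv⟩ := H.full hz he
    obtain ⟨q, hTq, hq⟩ := H.full hz.swap hf
    have hTv' : T v = {a, b, e} := by
      rw [hTv]; ext i; simp only [mem_insert_iff, mem_singleton_iff]; tauto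
    have hTq' : T q = {c, d, f} := by
      rw [hTq]; ext i; simp only [mem_insert_iff, mem_singleton_iff]; tauto
    exact ⟨v, H.irr.ee_of_full H.le4 hz hv.dist hq.dist hTv' hTq' he hf (Ne.symm hfe), hTv'⟩
  two := H.two
  tri := H.tri

end Vale.Agent.P032.Six
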