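import Vale.Agent.P032.R2.H833.NetW2
import Vale.Agent.P032.Net.H672.Net

/-!
# P032: the triangle of rhombic hubs from facts on the words of one circle

`HubL U T`: `stop`, `full`, `L2` and `L3`.  `HubL.toC : HubC U T`.
-/

open Set Filter Topology Metric

noncomputable section

namespace Vale.Agent.P032.Six

/-- the frame with the two facts on the words of one circle -/
structure HubL (U : Fin 6 → Set ℂ) (T : ℂ → Set (Fin 6)) : Prop where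
  irr : Irr U T
  le4 : ∀ x, (T x).ncard ≤ 4
  /-- exact arcs stop only at points of three colours, the third one missing at the centre -/
  stop : ∀ {z : ℂ} {a b c d : Fin 6}, DPt T z a b c d → ∀ {v : ℂ}, Acc T z {a, b} v →
    {a, b} ⊂ T v → ∃ e, e ∉ T z ∧ T v = {a, b, e}
  /-- all four kinds of full ends exist -/
  full : ∀ {z : ℂ} {a b c d e : Fin 6}, DPt T z a b c d → e ∉ T z → ∃ v, EE T z v ∧ T v = {a, b, e}
  /-- a class with one end of both types does not occur -/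
  two : ∀ {z v q : ℂ}, EE T z v → EE T z q → T q = (T v)ᶜ →
    (∃ v', v' ≠ v ∧ EE T z v' ∧ T v' = T v) ∨ ∃ q', q' ≠ q ∧ EE T z q' ∧ T q' = T q
  /-- a class with exactly one end and two complementary ends: the centre is between them -/
  l3 : ∀ {z v q q' : ℂ}, EE T z v → EE T z q → EE T z q' → q ≠ q' → T q = (T v)ᶜ →
    T q' = (T v)ᶜ → (∀ v', EE T z v' → T v' = T v → v' = v) →
    (∀ p, EE T z p → T p = (T v)ᶜ → p = q ∨ p = q') →
    ∃ α β γ : ℝ, 0 < α ∧ 0 < β ∧ 0 < γ ∧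
      (α : ℂ) * (v - z) + (β : ℂ) * (q - z) + (γ : ℂ) * (q' - z) = 0

variable {U : Fin 6 → Set ℂ} {T : ℂ → Set (Fin 6)}

/-- the two kinds of lines at a two-pair point are separated -/
theorem Irr.sep833 (h : Irr U T) {z v₁ v₂ q₁ q₂ : ℂ} (hv₁ : EE T z v₁) (hv₂ : EE T z v₂)
    (hq₁ : EE T z q₁) (hq₂ : EE T z q₂) (e2 : T v₂ = T v₁) (g1 : T q₁ = (T v₁)ᶜ)
    (g2 : T q₂ = (T v₁)ᶜ) :
    0 < cr (q₁ - z) (v₁ - z) * cr (q₁ - z) (v₂ - z) *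
      (cr (q₂ - z) (v₁ - z) * cr (q₂ - z) (v₂ - z)) := by
  have e : ∀ {v q}, T v = T v₁ → T q = (T v₁)ᶜ → T v ∩ T z = T z \ T q := by
    intro v q h1 h2
    rw [h1, h2, Set.sdiff_compl, inter_comm]
  have l1 := hq₁.lp2 h hv₁ hv₂ (e rfl g1) (e e2 g1)
  have l2 := hq₂.lp2 h hv₁ hv₂ (e rfl g2) (e e2 g2)
  have nz : ∀ {v q}, EE T z v → EE T z q → T v = T v₁ → T q = (T v₁)ᶜ →
      cr (q - z) (v - z) ≠ 0 := by
    intro v q hv hq h1 h2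
    refine cr_ne_of hq.dist hv.dist ?_ ?_
    · rintro rfl
      rw [h1] at h2
      obtain ⟨i, hi⟩ : (T v₁).Nonempty :=
        Set.nonempty_of_ncard_ne_zero (by rw [hv₁.card_v]; norm_num)
      have h3 : i ∈ (T v₁)ᶜ := h2 ▸ hi
      exact h3 hi
    · rw [add_comm]
      exact hv.anti h hq (by rw [h2, h1])
  have n11 := nz hv₁ hq₁ rfl g1
  have n21 := nz hv₂ hq₁ e2 g1
  have n12 := nz hv₁ hq₂ rfl g2
  have n22 := nz hv₂ hq₂ e2 g2
  have hP : (0 < cr (q₁ - z) (v₁ - z) * cr (q₁ - z) (v₂ - z)) ↔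
      0 < cr (q₂ - z) (v₁ - z) * cr (q₂ - z) (v₂ - z) := l1.symm.trans l2
  rcases lt_or_gt_of_ne (mul_ne_zero n11 n21) with h5 | h5
  · rcases lt_or_gt_of_ne (mul_ne_zero n12 n22) with h6 | h6
    · exact mul_pos_of_neg_of_neg h5 h6
    · exact absurd (hP.2 h6) (not_lt.2 h5.le)
  · exact mul_pos h5 (hP.1 h5)

namespace HubL

/-- the network of the two-pair points -/
theorem net (H : HubL U T) (X : Set (Fin 6)) :
    Vale.Agent.P032.Net.H672.Net (fun z v => EE T z v ∧ T v = X)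
      (fun z q => EE T z q ∧ T q = Xᶜ) := by
  have h := H.irr
  have h4 := H.le4
  have hX3 : ∀ {z v}, EE T z v ∧ T v = X → X.ncard = 3 := by
    rintro z v ⟨h1, rfl⟩; exact h1.card_v
  have hX3' : ∀ {z v}, EE T z v ∧ T v = Xᶜ → X.ncard = 3 := by
    rintro z v ⟨h1, h2⟩
    have h3 := h1.card_v
    rw [h2] at h3
    have := Set.ncard_add_ncard_compl X
    rw [Nat.card_eq_fintype_card, Fintype.card_fin] at this
    omega
  have hc : ∀ {z v z' q}, EE T z v ∧ T v = X → EE T z' q ∧ T q = Xᶜ → T q = (T v)ᶜ := by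
    rintro z v z' q ⟨-, h1⟩ ⟨-, h2⟩
    rw [h1, h2]
  refine
    { dist_t := fun hv => hv.1.dist
      dist_c := fun hq => hq.1.dist
      ne := fun {z z' v} hv hq => ?_
      rh := fun {z v q} hv hq => ⟨⟨hv.1.rh h h4 hq.1 (hc hv hq), hv.2⟩,
        ⟨hv.1.rh' h h4 hq.1 (hc hv hq), hq.2⟩⟩
      three_t := ?_
      three_c := ?_
      sep := ?_
      L2 := ?_
      L3 := ?_
      L3' := ?_ }
  · exact ((hv.1.en' hv.2).ne (hX3 hv) (hq.1.en' hq.2)) rfl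
  · rintro v z₁ z₂ z₃ z₄ ⟨a1, q1, b1⟩ ⟨a2, q2, b2⟩ ⟨a3, q3, b3⟩ ⟨a4, q4, b4⟩
    exact h.en_three (hX3 a1) ⟨a1.1.en' a1.2, q1, b1.1.en' b1.2⟩
      ⟨a2.1.en' a2.2, q2, b2.1.en' b2.2⟩ ⟨a3.1.en' a3.2, q3, b3.1.en' b3.2⟩
      ⟨a4.1.en' a4.2, q4, b4.1.en' b4.2⟩
  · rintro q z₁ z₂ z₃ z₄ ⟨a1, q1, b1⟩ ⟨a2, q2, b2⟩ ⟨a3, q3, b3⟩ ⟨a4, q4, b4⟩
    have e : ∀ {z v}, EE T z v ∧ T v = X → En T Xᶜᶜ z v := fun hv =>
      hv.1.en' (by rw [compl_compl]; exact hv.2)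
    exact h.en_three (X := Xᶜ) (ncard_compl_three (hX3' a1))
      ⟨a1.1.en' a1.2, q1, e b1⟩ ⟨a2.1.en' a2.2, q2, e b2⟩
      ⟨a3.1.en' a3.2, q3, e b3⟩ ⟨a4.1.en' a4.2, q4, e b4⟩
  · rintro z v₁ v₂ q₁ q₂ hv₁ hv₂ hq₁ hq₂
    have := h.sep833 hv₁.1 hv₂.1 hq₁.1 hq₂.1 (hv₂.2.trans hv₁.2.symm) (hc hv₁ hq₁) (hc hv₁ hq₂)
    refine this.trans_le (le_of_eq ?_)
    unfold cr Vale.Agent.P032.Net.H672.dt
    ring
  · intro z v q hv hq
    rcases H.two hv.1 hq.1 (hc hv hq) with ⟨v', h5, h6, h7⟩ | ⟨q', h5, h6, h7⟩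
    · exact Or.inl ⟨v', h5, h6, h7.trans hv.2⟩
    · exact Or.inr ⟨q', h5, h6, h7.trans hq.2⟩
  · intro z v q q' hv hq hq' hne hu1 hu2
    exact H.l3 hv.1 hq.1 hq'.1 hne (hc hv hq) (hc hv hq')
      (fun v' h5 h6 => hu1 v' ⟨h5, h6.trans hv.2⟩)
      (fun p h5 h6 => hu2 p ⟨h5, by rw [h6, hv.2]⟩)
  · intro z q v v' hq hv hv' hne hu1 hu2
    exact H.l3 hq.1 hv.1 hv'.1 hne (by rw [hv.2, hq.2, compl_compl])
      (by rw [hv'.2, hq.2, compl_compl])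
      (fun v' h5 h6 => hu1 v' ⟨h5, h6.trans hq.2⟩)
      (fun p h5 h6 => hu2 p ⟨h5, by rw [h6, hq.2, compl_compl]⟩)

/-- **`L2` and `L3` exclude the triangle** -/
theorem toC (H : HubL U T) : HubC U T where
  irr := H.irr
  le4 := H.le4
  stop := H.stop
  full := H.full
  two := H.two
  tri := by
    intro v c₁ c₂ c₃ t1 t2 t3 h12 h13 h23 a12 k12 a13 k13 a23 k23
    have h := H.irr
    have h4 := H.le4
    have b12 := t1.rh' h h4 a12 k12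
    have b13 := t1.rh' h h4 a13 k13
    have b23 := t2.rh' h h4 a23 k23
    have e12 : v + (c₁ + c₂ - v) - c₁ = c₂ := by ring
    have e13 : v + (c₁ + c₃ - v) - c₁ = c₃ := by ring
    have e23 : v + (c₂ + c₃ - v) - c₂ = c₃ := by ring
    rw [e12] at b12
    rw [e13] at b13
    rw [e23] at b23
    exact (H.net (T v)).no_three ⟨t1, rfl⟩ ⟨t2, rfl⟩ ⟨t3, rfl⟩ h12 h13 h23 ⟨a12, k12⟩ ⟨b12, k12⟩
      ⟨a13, k13⟩ ⟨b13, k13⟩ ⟨a23, k23⟩ ⟨b23, k23⟩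

end HubL

end Vale.Agent.P032.Six
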