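import Vale.Agent.P032.R2.H833.HubC
import Vale.Agent.P032.R2.H784.ConvC

/-!
# P032: the world with contacts of type S3 only, rule R

`S3W U T`: at most four colours; the four-coloured points on the circle of a two-pair point are
two-pair points of type S3 (`tie`), exact arcs of two-pair points end in three-coloured points
(`end3`).  `z = {ab|cd}`, `y = {ab|ef}` at distance one (a lock pair):

* `S3W.inside`: the points of `S(z)` with palette inside `T z` are exact;
* `S3W.rule`: if `p` is on an exact `cd`-arc of `S(z)` then `T (y + p - z) = {a, b}`.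
-/

open Set Filter Topology Metric

noncomputable section

namespace Vale.Agent.P032.Six

/-- the world with contacts of type S3 only -/
structure S3W (U : Fin 6 → Set ℂ) (T : ℂ → Set (Fin 6)) : Prop where
  irr : Irr U T
  le4 : ∀ x, (T x).ncard ≤ 4
  /-- contacts are two-pair points with a common pair -/
  tie : ∀ {z : ℂ} {a b c d : Fin 6}, DPt T z a b c d → ∀ {y : ℂ}, dist y z = 1 →
    (T y).ncard = 4 → (T y ∩ T z = {a, b} ∧ ∃ e f, DPt T y a b e f) ∨
      (T y ∩ T z = {c, d} ∧ ∃ e f, DPt T y c d e f)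
  /-- exact arcs end in three-coloured points -/
  end3 : ∀ {z : ℂ} {a b c d : Fin 6}, DPt T z a b c d → ∀ {v : ℂ}, Acc T z {a, b} v →
    {a, b} ⊂ T v → (T v).ncard ≤ 3

variable {U : Fin 6 → Set ℂ} {T : ℂ → Set (Fin 6)}

theorem ncard_pair_ne {i j : Fin 6} (h : i ≠ j) : ({i, j} : Set (Fin 6)).ncard = 2 :=
  Set.ncard_pair h

/-- a colour of the first pair misses at a three-coloured point of the circle with the other
colours of the centre: impossible -/
theorem Irr.no_three_in (h : Irr U T) {z x : ℂ} {a b c d i : Fin 6} (hz : DPt T z a b c d)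
    (hx : dist x z = 1) (h3 : (T x).ncard ≤ 3) (hi : i = a ∨ i = b)
    (hsub : T z ⊆ insert i (T x)) : False := by
  obtain ⟨p1, hp1⟩ := hz.arc1
  obtain ⟨y, hy, hyv, hyv2⟩ := hp1.exists_off_line (y := x)
  have hyT : T y = {a, b} := hy.mem
  refine h.third_notMem (z := z) (v := x) (q := y) (d := i) hx h3 hsub hy.1
    (h.sub _ ?_) hyv hyv2
  rw [hyT]
  rcases hi with rfl | rfl <;> simp

namespace S3W

/-- points of the circle inside the palette of the centre -/
theorem inside (H : S3W U T) {z x : ℂ} {a b c d : Fin 6} (hz : DPt T z a b c d)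
    (hx : dist x z = 1) (hsub : T x ⊆ T z) : T x = {a, b} ∨ T x = {c, d} := by
  have h := H.irr
  have h4 := H.le4 x
  obtain ⟨i0, hi0⟩ := h.ne x
  rcases Nat.lt_or_ge (T x).ncard 4 with hlt | hge
  · by_cases h3 : (T x).ncard = 3
    · exfalso
      have hc := Set.ncard_sdiff hsub (Set.toFinite _)
      rw [hz.card, h3] at hc
      obtain ⟨i, hi⟩ := Set.ncard_eq_one.1 (show (T z \ T x).ncard = 1 by omega)
      have hins : T z ⊆ insert i (T x) := by
        intro m hm
        by_cases hmx : m ∈ T x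
        · exact Or.inr hmx
        · left
          have : m ∈ T z \ T x := ⟨hm, hmx⟩
          rw [hi] at this
          exact this
      have hiz : i ∈ T z := by
        have : i ∈ T z \ T x := by rw [hi]; rfl
        exact this.1
      rw [hz.pal] at hiz
      rcases hiz with h1 | h1 | h1 | h1
      · exact h.no_three_in hz hx (by omega) (Or.inl h1) hins
      · exact h.no_three_in hz hx (by omega) (Or.inr h1) hins
      · exact h.no_three_in hz.swap hx (by omega) (Or.inl h1) hins
      · exact h.no_three_in hz.swap hx (by omega) (Or.inr h1) hins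
    · by_cases h2 : (T x).ncard = 2
      · exact h.twoPairs hz x hx (h.pair_open h2 hsub Subset.rfl) hsub
      · exfalso
        have h1 : (T x).ncard ≤ 1 := by omega
        have h5 : T x ⊆ {i0} := fun m hm =>
          (Set.ncard_le_one (Set.toFinite _)).1 h1 m hm i0 hi0
        exact h.mx.notMem' (h.mem_of_single h5) hx (h.sub z (hsub hi0))
  · exfalso
    have hc4 : (T x).ncard = 4 := by omega
    have hint : T x ∩ T z = T x := inter_eq_left.2 hsub
    rcases H.tie hz hx hc4 with ⟨h1, -⟩ | ⟨h1, -⟩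
    · rw [hint] at h1
      rw [h1, Set.ncard_pair hz.ab] at hc4
      omega
    · rw [hint] at h1
      rw [h1, Set.ncard_pair hz.cd] at hc4
      omega

end S3W

/-- translates of an exact arc -/
theorem Irr.prism833 (h : Irr U T) {z y p : ℂ} {P : Set (Fin 6)} (hp : Arc T z p P)
    (hy : dist y z = 1) (h1 : p ≠ y) (h2 : p + y ≠ 2 * z) {i : Fin 6} (hi : i ∈ P) :
    i ∉ Pal U (y + p - z) := by
  have hd : dist p (y + p - z) = 1 := by
    rw [dist_comm, dist_eq_norm, show y + p - z - p = y - z by ring, ← dist_eq_norm]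
    exact hy
  refine S5.H767.line_free h hp.1 (t := i) ?_ hd (fun h3 => h2 ?_) fun h3 => h1 ?_
  · filter_upwards [hp.2] with q hq
    rw [hq]; exact hi
  · linear_combination h3
  · linear_combination -h3

/-- a lock pair: two-pair points `{ab|cd}`, `{ab|ef}` at distance one -/
structure Lock (T : ℂ → Set (Fin 6)) (z y : ℂ) (a b c d e f : Fin 6) : Prop where
  hz : DPt T z a b c d
  hy : DPt T y a b e f
  d1 : dist y z = 1
  nd : [a, b, c, d, e, f].Nodup

namespace Lock

variable {z y : ℂ} {a b c d e f : Fin 6}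

theorem ne_all (L : Lock T z y a b c d e f) :
    (a ≠ b ∧ a ≠ c ∧ a ≠ d ∧ a ≠ e ∧ a ≠ f) ∧ (b ≠ c ∧ b ≠ d ∧ b ≠ e ∧ b ≠ f) ∧
      (c ≠ d ∧ c ≠ e ∧ c ≠ f) ∧ (d ≠ e ∧ d ≠ f) ∧ e ≠ f := by
  have hn := L.nd
  simp only [List.nodup_cons, List.mem_cons, List.not_mem_nil, or_false, not_or, List.nodup_nil,
    and_true, not_false_eq_true] at hn
  exact hn

theorem all (L : Lock T z y a b c d e f) (i : Fin 6) :
    i = a ∨ i = b ∨ i = c ∨ i = d ∨ i = e ∨ i = f := by
  have h1 : ([a, b, c, d, e, f] : List (Fin 6)).toFinset = Finset.univ :=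
    Finset.eq_univ_of_card _ (by rw [List.toFinset_card_of_nodup L.nd]; rfl)
  have h2 : i ∈ ([a, b, c, d, e, f] : List (Fin 6)).toFinset := by rw [h1]; exact Finset.mem_univ i
  simpa using h2

/-- exchange of the two centres -/
theorem symm (L : Lock T z y a b c d e f) : Lock T y z a b e f c d where
  hz := L.hy
  hy := L.hz
  d1 := by rw [dist_comm]; exact L.d1
  nd := by
    obtain ⟨⟨ab, ac, ad, ae, af⟩, ⟨bc, bd, be, bf⟩, ⟨cd, ce, cf⟩, ⟨de, df⟩, ef⟩ := L.ne_all
    simp [ab, ac, ad, ae, af, bc, bd, be, bf, cd, ef, ce.symm, de.symm, cf.symm, df.symm]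

theorem az (L : Lock T z y a b c d e f) : a ∈ T z := by rw [L.hz.pal]; simp
theorem bz (L : Lock T z y a b c d e f) : b ∈ T z := by rw [L.hz.pal]; simp
theorem cz (L : Lock T z y a b c d e f) : c ∈ T z := by rw [L.hz.pal]; simp
theorem dz (L : Lock T z y a b c d e f) : d ∈ T z := by rw [L.hz.pal]; simp
theorem ay (L : Lock T z y a b c d e f) : a ∈ T y := by rw [L.hy.pal]; simp
theorem by' (L : Lock T z y a b c d e f) : b ∈ T y := by rw [L.hy.pal]; simp
theorem ey (L : Lock T z y a b c d e f) : e ∈ T y := by rw [L.hy.pal]; simp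
theorem fy (L : Lock T z y a b c d e f) : f ∈ T y := by rw [L.hy.pal]; simp

theorem cy (L : Lock T z y a b c d e f) : c ∉ T y := by
  obtain ⟨⟨ab, ac, ad, ae, af⟩, ⟨bc, bd, be, bf⟩, ⟨cd, ce, cf⟩, ⟨de, df⟩, ef⟩ := L.ne_all
  rw [L.hy.pal]; simp [ac.symm, bc.symm, ce, cf]

theorem dy (L : Lock T z y a b c d e f) : d ∉ T y := by
  obtain ⟨⟨ab, ac, ad, ae, af⟩, ⟨bc, bd, be, bf⟩, ⟨cd, ce, cf⟩, ⟨de, df⟩, ef⟩ := L.ne_all
  rw [L.hy.pal]; simp [ad.symm, bd.symm, de, df]

theorem ez (L : Lock T z y a b c d e f) : e ∉ T z := by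
  obtain ⟨⟨ab, ac, ad, ae, af⟩, ⟨bc, bd, be, bf⟩, ⟨cd, ce, cf⟩, ⟨de, df⟩, ef⟩ := L.ne_all
  rw [L.hz.pal]; simp [ae.symm, be.symm, ce.symm, de.symm]

theorem fz (L : Lock T z y a b c d e f) : f ∉ T z := by
  obtain ⟨⟨ab, ac, ad, ae, af⟩, ⟨bc, bd, be, bf⟩, ⟨cd, ce, cf⟩, ⟨de, df⟩, ef⟩ := L.ne_all
  rw [L.hz.pal]; simp [af.symm, bf.symm, cf.symm, df.symm]

theorem in_y (L : Lock T z y a b c d e f) {S : Set (Fin 6)} (hc : c ∉ S) (hd : d ∉ S) :
    S ⊆ T y := by
  intro i hi
  rw [L.hy.pal]
  rcases L.all i with rfl | rfl | rfl | rfl | rfl | rfl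
  · simp
  · simp
  · exact absurd hi hc
  · exact absurd hi hd
  · simp
  · simp

theorem in_z (L : Lock T z y a b c d e f) {S : Set (Fin 6)} (he : e ∉ S) (hf : f ∉ S) :
    S ⊆ T z := by
  intro i hi
  rw [L.hz.pal]
  rcases L.all i with rfl | rfl | rfl | rfl | rfl | rfl
  · simp
  · simp
  · simp
  · simp
  · exact absurd hi he
  · exact absurd hi hf

/-- no point of the circle has both `c, d` antipodally to `y` -/
theorem anti_cd (L : Lock T z y a b c d e f) (h : Irr U T) (hc : c ∈ Pal U (2 * z - y))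
    (hd : d ∈ Pal U (2 * z - y)) : False :=
  h.anti L.hz L.d1 (h.sub _ L.ay) (h.sub _ L.by') hc hd

theorem dist_tr (L : Lock T z y a b c d e f) {p : ℂ} (hp : dist p z = 1) :
    dist (y + p - z) y = 1 ∧ dist (y + p - z) p = 1 := by
  constructor
  · rw [dist_eq_norm, show y + p - z - y = p - z by ring, ← dist_eq_norm]; exact hp
  · rw [dist_eq_norm, show y + p - z - p = y - z by ring, ← dist_eq_norm]; exact L.d1

/-- on an exact `cd`-arc of `S(z)` the translate is exact -/
theorem exact_tr (L : Lock T z y a b c d e f) (H : S3W U T) {p : ℂ} (hp : Arc T z p {c, d}) :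
    T (y + p - z) = {a, b} ∨ T (y + p - z) = {e, f} := by
  have h := H.irr
  have hTp : T p = {c, d} := hp.mem
  have h1 : p ≠ y := by
    rintro rfl
    exact L.cy (by rw [hTp]; simp)
  have h2 : p + y ≠ 2 * z := by
    intro h2
    have e1 : 2 * z - y = p := by linear_combination -h2
    exact L.anti_cd h (by rw [e1]; exact h.sub _ (by rw [hTp]; simp))
      (by rw [e1]; exact h.sub _ (by rw [hTp]; simp))
  have hc := h.prism833 hp L.d1 h1 h2 (i := c) (by simp)
  have hd := h.prism833 hp L.d1 h1 h2 (i := d) (by simp)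
  exact H.inside L.hy (L.dist_tr hp.1).1
    (L.in_y (fun h5 => hc (h.sub _ h5)) fun h5 => hd (h.sub _ h5))

/-- on a whole arc the translated palette is constant -/
theorem const_tr (L : Lock T z y a b c d e f) (H : S3W U T) {p : ℂ} (hp : dist p z = 1)
    {l : ℝ} (hl : 0 < l) (harc : ∀ t ∈ Ioo 0 l, T (z + (p - z) * cis (-(1 * t))) = {c, d})
    (h0 : T p = {c, d}) (hep : T (y + p - z) = {e, f}) :
    e ∈ T (y + (z + (p - z) * cis (-(1 * l))) - z) ∧
      f ∈ T (y + (z + (p - z) * cis (-(1 * l))) - z) := by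
  have h := H.irr
  have hcont : Continuous fun t : ℝ => y + (z + (p - z) * cis (-(1 * t))) - z :=
    (continuous_const.add (continuous_rot z p 1)).sub continuous_const
  have hcd : ({c, d} : Set (Fin 6)).ncard = 2 := Set.ncard_pair L.hz.cd
  have hcdz : ({c, d} : Set (Fin 6)) ⊆ T z := by
    rintro i (rfl | hi)
    · exact L.cz
    · rw [mem_singleton_iff] at hi; rw [hi]; exact L.dz
  have hdich : ∀ t ∈ Ico 0 l, T (y + (z + (p - z) * cis (-(1 * t))) - z) = {a, b} ∨
      T (y + (z + (p - z) * cis (-(1 * t))) - z) = {e, f} := by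
    intro t ht
    have hT : T (z + (p - z) * cis (-(1 * t))) = {c, d} := by
      rcases eq_or_lt_of_le ht.1 with h1 | h1
      · rw [← h1, mul_zero, neg_zero, cis_zero394, mul_one, add_sub_cancel]; exact h0
      · exact harc t ⟨h1, ht.2⟩
    exact L.exact_tr H ⟨dist_rot hp _, h.pair_open hcd hcdz hT.subset⟩
  obtain ⟨⟨ab, ac, ad, ae, af⟩, ⟨bc, bd, be, bf⟩, ⟨cd, ce, cf⟩, ⟨de, df⟩, ef⟩ := L.ne_all
  have hpre : IsPreconnected (Ico (0 : ℝ) l) := isPreconnected_Ico
  have hsub := isPreconnected_iff_subset_of_disjoint_closed.1 hpre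
    {t | a ∈ T (y + (z + (p - z) * cis (-(1 * t))) - z)}
    {t | e ∈ T (y + (z + (p - z) * cis (-(1 * t))) - z)}
    ((h.closed a).preimage hcont) ((h.closed e).preimage hcont)
    (fun t ht => by
      rcases hdich t ht with h1 | h1
      · left; show a ∈ T (y + (z + (p - z) * cis (-(1 * t))) - z); rw [h1]; simp
      · right; show e ∈ T (y + (z + (p - z) * cis (-(1 * t))) - z); rw [h1]; simp)
    (by
      rw [Set.eq_empty_iff_forall_notMem]
      rintro t ⟨ht, h1, h2⟩
      have h1 : a ∈ T (y + (z + (p - z) * cis (-(1 * t))) - z) := h1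
      have h2 : e ∈ T (y + (z + (p - z) * cis (-(1 * t))) - z) := h2
      rcases hdich t ht with h3 | h3
      · rw [h3] at h2; simp [ae.symm, be.symm] at h2
      · rw [h3] at h1; simp [ae, af] at h1)
  have hall : ∀ t ∈ Ico 0 l, T (y + (z + (p - z) * cis (-(1 * t))) - z) = {e, f} := by
    have h00 : a ∉ T (y + (z + (p - z) * cis (-(1 * (0 : ℝ)))) - z) := by
      rw [mul_zero, neg_zero, cis_zero394, mul_one, add_sub_cancel, hep]
      simp [ae, af]
    intro t ht
    rcases hsub with h1 | h1
    · exact absurd (h1 ⟨le_rfl, hl⟩) h00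
    · have h2 : e ∈ T (y + (z + (p - z) * cis (-(1 * t))) - z) := h1 ht
      rcases hdich t ht with h3 | h3
      · rw [h3] at h2; simp [ae.symm, be.symm] at h2
      · exact h3
  have hmem : ∀ i : Fin 6, (∀ t ∈ Ico 0 l, i ∈ T (y + (z + (p - z) * cis (-(1 * t))) - z)) →
      i ∈ T (y + (z + (p - z) * cis (-(1 * l))) - z) := by
    intro i hi
    have h1 : IsClosed {t : ℝ | i ∈ T (y + (z + (p - z) * cis (-(1 * t))) - z)} :=
      (h.closed i).preimage hcont
    have h2 : closure (Ico 0 l) ⊆ {t : ℝ | i ∈ T (y + (z + (p - z) * cis (-(1 * t))) - z)} :=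
      closure_minimal hi h1
    rw [closure_Ico hl.ne] at h2
    exact h2 ⟨hl.le, le_rfl⟩
  exact ⟨hmem e fun t ht => by rw [hall t ht]; simp, hmem f fun t ht => by rw [hall t ht]; simp⟩

/-- the tie at the end of a `cd`-arc -/
theorem no_tie (L : Lock T z y a b c d e f) (H : S3W U T) {q : ℂ} (hA : Acc T z {c, d} q)
    (hss : {c, d} ⊂ T q) (he : e ∈ T (y + q - z)) (hf : f ∈ T (y + q - z)) : False := by
  have h := H.irr
  obtain ⟨⟨ab, ac, ad, ae, af⟩, ⟨bc, bd, be, bf⟩, ⟨cd, ce, cf⟩, ⟨de, df⟩, ef⟩ := L.ne_all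
  have hq3 : (T q).ncard ≤ 3 := H.end3 L.hz.swap hA hss
  obtain ⟨x, hx, hTq⟩ := h.third L.hz.swap hA.dist hq3 hss
  have hqy : q ≠ y := by
    rintro rfl
    exact L.cy (by rw [hTq]; simp)
  have hanti : q + y ≠ 2 * z := by
    intro h2
    have e1 : 2 * z - y = q := by linear_combination -h2
    exact L.anti_cd h (by rw [e1]; exact h.sub _ (by rw [hTq]; simp))
      (by rw [e1]; exact h.sub _ (by rw [hTq]; simp))
  have hxef : x = e ∨ x = f := by
    rcases L.all x with h1 | h1 | h1 | h1 | h1 | h1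
    · exact absurd (h1 ▸ L.az) hx
    · exact absurd (h1 ▸ L.bz) hx
    · exact absurd (h1 ▸ L.cz) hx
    · exact absurd (h1 ▸ L.dz) hx
    · exact Or.inl h1
    · exact Or.inr h1
  obtain ⟨w, hw⟩ : ∃ w, w = y + q - z := ⟨_, rfl⟩
  rw [← hw] at he hf
  have hwy : dist w y = 1 := by rw [hw]; exact (L.dist_tr hA.dist).1
  have hwq : dist w q = 1 := by rw [hw]; exact (L.dist_tr hA.dist).2
  have hefw : ({e, f} : Set (Fin 6)) ⊆ T w := by
    rintro i (rfl | hi)
    · exact he
    · rw [mem_singleton_iff] at hi; rw [hi]; exact hf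
  have hxw : x ∈ T w := by
    rcases hxef with rfl | rfl
    · exact he
    · exact hf
  by_cases hin : T w ⊆ T y
  · -- `w` is exact
    have hTw : T w = {e, f} := by
      rcases H.inside L.hy hwy hin with h1 | h1
      · rw [h1] at he; simp [ae.symm, be.symm] at he
      · exact h1
    have hefy : ({e, f} : Set (Fin 6)) ⊆ T y := by rw [← hTw]; exact hin
    have harc : Arc T y w {e, f} :=
      ⟨hwy, h.pair_open (Set.ncard_pair ef) hefy hTw.subset⟩
    have hxq : x ∈ Pal U q := h.sub _ (by rw [hTq]; simp)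
    have hzy : dist z y = 1 := L.symm.d1
    refine h.prism833 harc hzy (p := w) ?_ ?_ (i := x) (by rcases hxef with rfl | rfl <;> simp) ?_
    · intro h1
      exact hanti (by rw [hw] at h1; linear_combination h1)
    · intro h1
      exact hqy (by rw [hw] at h1; linear_combination h1)
    · have e2 : z + w - y = q := by rw [hw]; ring
      rw [e2]; exact hxq
  · -- a colour `g ∈ {c, d}` at `w`
    obtain ⟨g, hgw, hgy⟩ := Set.not_subset.1 hin
    have hgcd : g = c ∨ g = d := by
      rcases L.all g with h1 | h1 | h1 | h1 | h1 | h1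
      · exact absurd (h1 ▸ L.ay) hgy
      · exact absurd (h1 ▸ L.by') hgy
      · exact Or.inl h1
      · exact Or.inr h1
      · exact absurd (h1 ▸ L.ey) hgy
      · exact absurd (h1 ▸ L.fy) hgy
    rcases Nat.lt_or_ge (T w).ncard 4 with hlt | hge
    · -- three colours
      have key : ∀ g', T q ⊆ insert g' (T w) → g' ∈ T z → False := by
        intro g' hs hgz
        rcases h.lemmaX (by rw [dist_comm]; exact hwq) (by omega) hs hA.dist (h.sub _ hgz)
          with h1 | h1
        · have : e ∈ T z := by rw [h1]; exact he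
          exact L.ez this
        · exact hqy (by rw [hw] at h1; linear_combination -h1)
      rcases hgcd with rfl | rfl
      · refine key d ?_ L.dz
        rw [hTq]
        rintro i (rfl | rfl | hi)
        · exact Or.inr hgw
        · exact Or.inl rfl
        · rw [mem_singleton_iff] at hi; rw [hi]; exact Or.inr hxw
      · refine key c ?_ L.cz
        rw [hTq]
        rintro i (rfl | rfl | hi)
        · exact Or.inl rfl
        · exact Or.inr hgw
        · rw [mem_singleton_iff] at hi; rw [hi]; exact Or.inr hxw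
    · -- four colours
      have hw4 : (T w).ncard = 4 := by have := H.le4 w; omega
      rcases H.tie L.hy hwy hw4 with ⟨h1, -⟩ | ⟨h1, m, n, hD⟩
      · have : e ∈ T w ∩ T y := ⟨he, L.ey⟩
        rw [h1] at this
        simp [ae.symm, be.symm] at this
      · have hmy : ∀ i ∈ T w, i ≠ e → i ≠ f → i = c ∨ i = d := by
          intro i hi hie hif
          have : i ∉ T y := by
            intro h5
            have h6 : i ∈ T w ∩ T y := ⟨hi, h5⟩
            rw [h1] at h6
            rcases h6 with h6 | h6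
            · exact hie h6
            · exact hif h6
          rcases L.all i with h1 | h1 | h1 | h1 | h1 | h1
          · exact absurd (h1 ▸ L.ay) this
          · exact absurd (h1 ▸ L.by') this
          · exact Or.inl h1
          · exact Or.inr h1
          · exact absurd (h1 ▸ L.ey) this
          · exact absurd (h1 ▸ L.fy) this
        have hm := hmy m (by rw [hD.pal]; simp) hD.ac.symm hD.bc.symm
        have hn := hmy n (by rw [hD.pal]; simp) hD.ad.symm hD.bd.symm
        have hmn := hD.cd
        have hcw : c ∈ T w ∧ d ∈ T w := by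
          rw [hD.pal]
          rcases hm with rfl | rfl <;> rcases hn with rfl | rfl
          · exact absurd rfl hmn
          · simp
          · simp
          · exact absurd rfl hmn
        have hqw : T q ⊆ T w := by
          rw [hTq]
          rintro i (rfl | rfl | hi)
          · exact hcw.1
          · exact hcw.2
          · rw [mem_singleton_iff] at hi; rw [hi]; exact hxw
        have hq3' : (T q).ncard = 3 := by
          rw [hTq]
          refine Set.ncard_eq_three.2 ⟨c, d, x, cd, ?_, ?_, rfl⟩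
          · rcases hxef with rfl | rfl
            · exact ce
            · exact cf
          · rcases hxef with rfl | rfl
            · exact de
            · exact df
        rcases H.inside hD (by rw [dist_comm]; exact hwq) hqw with h5 | h5
        · rw [h5, Set.ncard_pair hD.ab] at hq3'; omega
        · rw [h5, Set.ncard_pair hD.cd] at hq3'; omega

/-- **RULE R**: on an exact `cd`-arc of `S(z)` the translate to `S(y)` is exactly `{a, b}` -/
theorem rule (L : Lock T z y a b c d e f) (H : S3W U T) {p : ℂ} (hp : Arc T z p {c, d}) :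
    T (y + p - z) = {a, b} := by
  have h := H.irr
  rcases L.exact_tr H hp with h1 | h1
  · exact h1
  · exfalso
    have hcdz : ({c, d} : Set (Fin 6)) ⊆ T z := by
      rintro i (rfl | hi)
      · exact L.cz
      · rw [mem_singleton_iff] at hi; rw [hi]; exact L.dz
    obtain ⟨l, hl0, -, hlt, hss, hA⟩ := h.arc_side (o := 1) (Or.inl rfl)
      (Set.ncard_pair L.hz.cd) hcdz hp.1 hp.mem
    obtain ⟨he, hf⟩ := L.const_tr H hp.1 hl0 hlt hp.mem h1
    exact L.no_tie H hA hss he hf

end Lock

end Vale.Agent.P032.Six
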