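import Mathlib

/-!
# P032, ROW A, part 1: plane topology

`frontier_preconn` : unicoherence of the plane in the form: if `O` is closed and preconnected, `t` is
preconnected and disjoint from `O`, and `frontier O` is in the closure of `t`, then `frontier O` is
preconnected.
-/

open Set Filter Topology Metric

noncomputable section

namespace Vale.Agent.P032.H833

/-- a continuous integer valued function on a preconnected set is constant -/
theorem const_of_int {X : Type*} [TopologicalSpace X] {S : Set X} (hS : IsPreconnected S) {D : X → ℝ}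
    (hc : ContinuousOn D S) (hD : ∀ x ∈ S, ∃ n : ℤ, D x = n) : ∀ x ∈ S, ∀ y ∈ S, D x = D y := by
  have key : ∀ x ∈ S, ∀ y ∈ S, ¬ D x < D y := by
    intro x hx y hy hlt
    obtain ⟨n, hn⟩ := hD x hx
    obtain ⟨m, hm⟩ := hD y hy
    have h1 : n < m := by rw [hn, hm] at hlt; exact_mod_cast hlt
    have h2 : (n : ℝ) + 1 ≤ m := by exact_mod_cast h1
    have h3 : (n : ℝ) + 1 / 2 ∈ Icc (D x) (D y) := by
      rw [hn, hm]; constructor <;> linarith
    obtain ⟨z, hz, hzD⟩ := hS.intermediate_value hx hy hc h3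
    obtain ⟨l, hl⟩ := hD z hz
    have h4 : (l : ℝ) = n + 1 / 2 := by rw [← hl, hzD]
    have h5 : (2 * l : ℤ) = 2 * n + 1 := by
      have : (2 * l : ℝ) = 2 * n + 1 := by linarith
      exact_mod_cast this
    omega
  intro x hx y hy
  exact le_antisymm (not_lt.1 (key y hy x hx)) (not_lt.1 (key x hx y hy))

/-- angles with trivial exponential -/
theorem int_of_exp {a : ℝ} (h : Circle.exp a = 1) : ∃ n : ℤ, a / (2 * Real.pi) = n := by
  obtain ⟨n, hn⟩ := Circle.exp_eq_one.1 h
  refine ⟨n, ?_⟩
  rw [hn]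
  field_simp

theorem exp_pi_eq : Circle.exp Real.pi = Circle.exp (-Real.pi) := by
  apply Circle.ext
  rw [Circle.coe_exp, Circle.coe_exp]
  push_cast
  rw [Complex.exp_pi_mul_I, neg_mul, Complex.exp_neg, Complex.exp_pi_mul_I]
  norm_num

/-- every continuous map of the plane to the circle lifts -/
theorem exists_lift (g : C(ℂ, Circle)) : ∃ F : C(ℂ, ℝ), ∀ x, Circle.exp (F x) = g x := by
  obtain ⟨e, he⟩ : ∃ e : ℝ, Circle.exp e = g 0 := ⟨Complex.arg (g 0 : ℂ), Circle.exp_arg _⟩
  obtain ⟨F, ⟨-, hF⟩, -⟩ := Circle.isCoveringMap_exp.existsUnique_continuousMap_lifts g 0 e he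
  exact ⟨F, fun x => congrFun hF x⟩

/-- **unicoherence of the plane** -/
theorem frontier_preconn {t O : Set ℂ} (ht : IsPreconnected t) (hO : IsClosed O)
    (hOc : IsPreconnected O) (hdisj : ∀ x ∈ t, x ∉ O) (hfr : frontier O ⊆ closure t) :
    IsPreconnected (frontier O) := by
  classical
  rw [isPreconnected_closed_iff]
  rintro A B hA hB hAB ⟨x1, hx1, hx1A⟩ ⟨x2, hx2, hx2B⟩
  by_contra hcon
  have hfc : IsClosed (frontier O) := isClosed_frontier
  have hd : Disjoint (frontier O ∩ A) (frontier O ∩ B) := by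
    rw [Set.disjoint_left]
    rintro x ⟨h1, h2⟩ ⟨-, h3⟩
    exact hcon ⟨x, h1, h2, h3⟩
  obtain ⟨f, hf0, hf1, -⟩ := exists_continuous_zero_one_of_isClosed (hfc.inter hA) (hfc.inter hB) hd
  have hagree : ∀ x ∈ frontier O, Circle.exp (Real.pi * f x) = Circle.exp (-(Real.pi * f x)) := by
    intro x hx
    rcases hAB hx with h | h
    · have : f x = 0 := hf0 ⟨hx, h⟩
      rw [this]; simp
    · have : f x = 1 := hf1 ⟨hx, h⟩
      rw [this, mul_one]; exact exp_pi_eq
  have hgc : Continuous fun x : ℂ => if x ∈ O then Circle.exp (Real.pi * f x)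
      else Circle.exp (-(Real.pi * f x)) := by
    refine continuous_if (fun a ha => hagree a ha) ?_ ?_
    · exact (Circle.exp.continuous.comp (by fun_prop)).continuousOn
    · exact (Circle.exp.continuous.comp (by fun_prop)).continuousOn
  obtain ⟨F, hF⟩ := exists_lift ⟨_, hgc⟩
  simp only [ContinuousMap.coe_mk] at hF
  -- on `O`
  have h1 : ∀ x ∈ O, ∃ n : ℤ, (F x - Real.pi * f x) / (2 * Real.pi) = n := by
    intro x hx
    refine int_of_exp ?_
    have := hF x
    rw [if_pos hx] at this
    rw [sub_eq_add_neg, Circle.exp_add, this, ← Circle.exp_add, add_neg_cancel, Circle.exp_zero]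
  have h2 : ∀ x ∈ closure t, ∃ n : ℤ, (F x + Real.pi * f x) / (2 * Real.pi) = n := by
    intro x hx
    refine int_of_exp ?_
    have hFx : Circle.exp (F x) = Circle.exp (-(Real.pi * f x)) := by
      rw [hF x]
      split_ifs with hxO
      · refine hagree x ?_
        rw [hO.frontier_eq]
        refine ⟨hxO, fun hint => ?_⟩
        obtain ⟨y, hy1, hy2⟩ := mem_closure_iff.1 hx _ isOpen_interior hint
        exact hdisj y hy2 (interior_subset hy1)
      · rfl
    rw [Circle.exp_add, hFx, ← Circle.exp_add, neg_add_cancel, Circle.exp_zero]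
  have hfO : ∀ x ∈ frontier O, x ∈ O := fun x hx => by
    rw [hO.frontier_eq] at hx; exact hx.1
  have e1 := const_of_int hOc (D := fun x => (F x - Real.pi * f x) / (2 * Real.pi))
    (Continuous.continuousOn (by fun_prop)) h1 x1 (hfO _ hx1) x2 (hfO _ hx2)
  have e2 := const_of_int ht.closure (D := fun x => (F x + Real.pi * f x) / (2 * Real.pi))
    (Continuous.continuousOn (by fun_prop)) h2 x1 (hfr hx1) x2 (hfr hx2)
  have f1 : f x1 = 0 := hf0 ⟨hx1, hx1A⟩
  have f2 : f x2 = 1 := hf1 ⟨hx2, hx2B⟩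
  have hpi := Real.pi_pos
  simp only [f1, f2] at e1 e2
  rw [div_left_inj' (by positivity)] at e1 e2
  linarith

/-- the outside of a disc is preconnected -/
theorem preconn_out (y : ℂ) : IsPreconnected {w : ℂ | 1 ≤ dist w y} := by
  have h1 : {w : ℂ | 1 ≤ dist w y} =
      (fun p : ℝ × ℝ => y + p.1 * Complex.exp (p.2 * Complex.I)) '' (Ici 1 ×ˢ univ) := by
    ext w
    constructor
    · intro hw
      refine ⟨(‖w - y‖, Complex.arg (w - y)), ⟨?_, mem_univ _⟩, ?_⟩
      · rw [← dist_eq_norm]; exact hw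
      · simp only
        rw [Complex.norm_mul_exp_arg_mul_I]; ring
    · rintro ⟨⟨r, θ⟩, ⟨hr, -⟩, rfl⟩
      have hr : 1 ≤ r := hr
      simp only [mem_ofPred_eq, dist_eq_norm, add_sub_cancel_left, norm_mul, Complex.norm_real,
        Complex.norm_exp_ofReal_mul_I, mul_one, Real.norm_eq_abs]
      exact hr.trans (le_abs_self r)
  rw [h1]
  refine (isPreconnected_Ici.prod isPreconnected_univ).image _ (Continuous.continuousOn ?_)
  fun_prop

/-- a preconnected set which meets `O` and `Oᶜ` meets the frontier -/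
theorem exists_frontier {B O : Set ℂ} (hB : IsPreconnected B) {x w : ℂ} (hx : x ∈ B) (hxO : x ∈ O)
    (hw : w ∈ B) (hwO : w ∉ O) : ∃ z ∈ B, z ∈ frontier O := by
  by_contra hcon
  push Not at hcon
  have hcov : B ⊆ interior O ∪ (closure O)ᶜ := by
    intro z hz
    by_contra h1
    rw [mem_union, not_or, notMem_compl_iff] at h1
    exact hcon z hz ⟨h1.2, h1.1⟩
  have h1 : x ∈ interior O := by
    rcases hcov hx with h | h
    · exact h
    · exact absurd (subset_closure hxO) h
  have h2 : w ∈ (closure O)ᶜ := by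
    rcases hcov hw with h | h
    · exact absurd (interior_subset h) hwO
    · exact h
  obtain ⟨z, -, hz1, hz2⟩ := hB _ _ isOpen_interior isClosed_closure.isOpen_compl hcov ⟨x, hx, h1⟩
    ⟨w, hw, h2⟩
  exact hz2 (subset_closure (interior_subset hz1))

end Vale.Agent.P032.H833
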