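import Vale.Agent.P032.S5.H483.Irr
import Vale.Agent.P032.R2.H833.Unico

/-!
# P032, ROW A: the skeleton theorem

`Irr.skeleton` : let `G` be closed, nonempty, `G ⊆ XX U`, and near every point of `G` every point
whose palette `T x` is not a singleton is in `G`.  Then `XX U ⊆ G`.
-/

open Set Filter Topology Metric

noncomputable section

namespace Vale.Agent.P032.H833

/-- a preconnected set which misses a circle, inside -/
theorem all_lt {t : Set ℂ} (ht : IsPreconnected t) {y p q : ℂ} (hp : p ∈ t) (hq : q ∈ t)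
    (hav : ∀ w ∈ t, dist w y ≠ 1) (h : dist p y < 1) : dist q y < 1 := by
  by_contra hcon
  obtain ⟨z, hz, hz1⟩ := ht.intermediate_value hp hq (f := fun w => dist w y)
    (Continuous.continuousOn (by fun_prop)) (⟨h.le, not_lt.1 hcon⟩ : (1 : ℝ) ∈ Icc _ _)
  exact hav z hz hz1

/-- **outer complement of a tile**: a preconnected open subset `t` of a set `W` without unit
distance to its closure, `W` maximal.  The complement of `O` is `t` with its holes filled. -/
theorem exists_outer {W t : Set ℂ} (free : ∀ x ∈ W, ∀ y ∈ closure W, dist x y ≠ 1)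
    (max : ∀ x, (∀ y ∈ closure W, dist x y ≠ 1) → x ∈ W) (ht : IsPreconnected t) (hto : IsOpen t)
    (htW : t ⊆ W) {x0 : ℂ} (hx0 : x0 ∈ t) :
    ∃ O : Set ℂ, IsClosed O ∧ IsPreconnected O ∧ (∀ x ∈ t, x ∉ O) ∧ frontier O ⊆ closure t ∧
      ∀ z, z ∉ O → z ∈ W := by
  have hd : ∀ p ∈ t, dist p x0 < 1 := fun p hp =>
    all_lt ht hx0 hp (fun w hw => free w (htW hw) x0 (subset_closure (htW hx0))) (by simp)
  have hF : IsClosed tᶜ := hto.isClosed_compl
  have hq2 : dist (x0 + 2) x0 = 2 := by rw [dist_eq_norm]; simp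
  have hout0 : ∀ w, 1 ≤ dist w x0 → w ∈ tᶜ := fun w hw hwt => absurd (hd w hwt) (not_lt.2 hw)
  have hqF : x0 + 2 ∈ tᶜ := hout0 _ (by rw [hq2]; norm_num)
  have hsub : connectedComponentIn tᶜ (x0 + 2) ⊆ tᶜ := connectedComponentIn_subset _ _
  have hcl : IsClosed (connectedComponentIn tᶜ (x0 + 2)) := by
    refine isClosed_of_closure_subset ?_
    exact isPreconnected_connectedComponentIn.closure.subset_connectedComponentIn
      (subset_closure (mem_connectedComponentIn hqF)) (closure_minimal hsub hF)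
  have hin : ∀ {S : Set ℂ} {w : ℂ}, IsPreconnected S → w ∈ S →
      w ∈ connectedComponentIn tᶜ (x0 + 2) → S ⊆ tᶜ → S ⊆ connectedComponentIn tᶜ (x0 + 2) := by
    intro S w hS hw hwO hSt
    rw [connectedComponentIn_eq hwO]
    exact hS.subset_connectedComponentIn hw hSt
  have hout : ∀ w, 1 ≤ dist w x0 → w ∈ connectedComponentIn tᶜ (x0 + 2) := fun w hw =>
    hin (preconn_out x0) (w := x0 + 2) (by rw [mem_ofPred_eq, hq2]; norm_num)
      (mem_connectedComponentIn hqF) (fun w hw => hout0 w hw) hw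
  refine ⟨connectedComponentIn tᶜ (x0 + 2), hcl, isPreconnected_connectedComponentIn,
    fun x hx hxO => hsub hxO hx, ?_, ?_⟩
  · intro x hx
    rw [hcl.frontier_eq] at hx
    by_contra hxt
    obtain ⟨r, hr, hball⟩ := Metric.isOpen_iff.1 isClosed_closure.isOpen_compl x hxt
    refine hx.2 (mem_interior_iff_mem_nhds.2 (mem_of_superset (Metric.ball_mem_nhds x hr) ?_))
    exact hin (convex_ball x r).isPreconnected (mem_ball_self hr) hx.1
      (hball.trans (compl_subset_compl.2 subset_closure))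
  · intro z hzO
    by_contra hzW
    have h1 : ∃ y ∈ closure W, dist z y = 1 := by
      by_contra hcon
      push Not at hcon
      exact hzW (max z hcon)
    obtain ⟨y, hy, hzy⟩ := h1
    have hav : ∀ w ∈ t, dist w y ≠ 1 := fun w hw => free w (htW hw) y hy
    rcases lt_or_gt_of_ne (hav x0 hx0) with h2 | h2
    · -- `t` inside the circle
      refine hzO (hin (preconn_out y) (w := x0 + 2) ?_ (mem_connectedComponentIn hqF) ?_ ?_)
      · have := dist_triangle (x0 + 2) y x0
        rw [hq2, dist_comm y x0] at this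
        rw [mem_ofPred_eq]; linarith
      · intro w hw hwt
        exact absurd (all_lt ht hx0 hwt hav h2) (not_lt.2 hw)
      · rw [mem_ofPred_eq, hzy]
    · refine hzO (hin (convex_closedBall y 1).isPreconnected (w := y) (mem_closedBall_self (by norm_num))
        (hout y (by rw [dist_comm]; exact h2.le)) ?_ (by rw [mem_closedBall, hzy]))
      intro w hw hwt
      rw [mem_closedBall] at hw
      exact absurd (all_lt ht hwt hx0 hav (lt_of_le_of_ne hw (hav w hwt))) (not_lt.2 h2.le)

end Vale.Agent.P032.H833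

namespace Vale.Agent.P032.Six

open Vale.Agent.P032.H833

variable {k : ℕ} {U : Fin k → Set ℂ} {T : ℂ → Set (Fin k)}

namespace Irr

theorem isOpen_single (h : Irr U T) (i : Fin k) : IsOpen {x | T x = {i}} := by
  rw [isOpen_iff_mem_nhds]
  intro x hx
  filter_upwards [h.nhd x] with w hw
  have hx : T x = {i} := hx
  rw [hx] at hw
  rcases Set.subset_singleton_iff_eq.1 hw with h1 | h1
  · exact absurd h1 (h.ne w).ne_empty
  · exact h1

/-- the tile of a point with one colour, and the outer part of its complement -/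
theorem exists_tile (h : Irr U T) {x : ℂ} {i : Fin k} (hx : T x = {i}) :
    ∃ t O : Set ℂ, IsOpen t ∧ x ∈ t ∧ (∀ w ∈ t, T w = {i}) ∧ IsPreconnected t ∧
      (∀ w ∈ closure t, w ∉ t → ¬ ∃ j, T w = {j}) ∧
      IsClosed O ∧ IsPreconnected O ∧ (∀ w ∈ t, w ∉ O) ∧ frontier O ⊆ closure t ∧
      ∀ z, z ∉ O → z ∈ U i := by
  have hV := h.isOpen_single i
  have hto : IsOpen (connectedComponentIn {x | T x = {i}} x) := hV.connectedComponentIn
  have hsub := connectedComponentIn_subset {x | T x = {i}} x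
  have hxt : x ∈ connectedComponentIn {x | T x = {i}} x := mem_connectedComponentIn hx
  have hpre : IsPreconnected (connectedComponentIn {x | T x = {i}} x) :=
    isPreconnected_connectedComponentIn
  obtain ⟨O, hO1, hO2, hO3, hO4, hO5⟩ := exists_outer (W := U i) (fun x hx => h.mx.free i x hx)
    (fun x hx => h.max i x hx) hpre hto (fun w hw => h.mem_of_single (hsub hw).le) hxt
  refine ⟨_, O, hto, hxt, fun w hw => hsub hw, hpre, ?_, hO1, hO2, hO3, hO4, hO5⟩
  rintro w hw hwt ⟨j, hj⟩
  obtain ⟨N, hN1, hN2, hN3, hN4⟩ : ∃ N : Set ℂ, IsOpen N ∧ w ∈ N ∧ IsPreconnected N ∧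
      N ⊆ {x | T x = {j}} := by
    obtain ⟨r, hr, hball⟩ := Metric.isOpen_iff.1 (h.isOpen_single j) w hj
    exact ⟨ball w r, isOpen_ball, mem_ball_self hr, (convex_ball w r).isPreconnected, hball⟩
  obtain ⟨v, hvN, hvt⟩ := mem_closure_iff.1 hw N hN1 hN2
  have h1 : T v = {j} := hN4 hvN
  have h2 : T v = {i} := hsub hvt
  have hij : i = j := by
    rw [h2] at h1
    exact Set.singleton_eq_singleton_iff.1 h1
  subst hij
  refine hwt ?_
  rw [connectedComponentIn_eq hvt]
  exact hN3.subset_connectedComponentIn hvN hN4 hN2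

/-- **ROW A: skeleton theorem** -/
theorem skeleton (h : Irr U T) {G : Set ℂ} (hG : IsClosed G) (hne : G.Nonempty) (hGX : G ⊆ XX U)
    (hloc : ∀ g ∈ G, ∀ᶠ x in 𝓝 g, (¬ ∃ i, T x = {i}) → x ∈ G) : XX U ⊆ G := by
  have hGs : ∀ g ∈ G, ¬ ∃ i, T g = {i} := by
    rintro g hg ⟨i, hi⟩
    exact hGX hg i (h.mem_of_single hi.le)
  choose! t O hto hxt htT htp htc hOc hOp htO hfr hOU using
    fun (p : ℂ × Fin k) (hp : T p.1 = {p.2}) => h.exists_tile hp
  -- the frontiers of the outer parts of the tiles which touch `G`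
  have key : ∀ p : ℂ × Fin k, T p.1 = {p.2} → (closure (t p) ∩ G).Nonempty →
      frontier (O p) ⊆ G := by
    rintro p hp ⟨g, hgt, hgG⟩
    have hgt' : g ∉ t p := fun hg => hGs g hgG ⟨_, htT p hp g hg⟩
    have hgO : g ∈ O p := by
      by_contra hcon
      exact hGX hgG _ (hOU p hp g hcon)
    have hgf : g ∈ frontier (O p) := by
      rw [(hOc p hp).frontier_eq]
      refine ⟨hgO, fun hint => ?_⟩
      obtain ⟨y, hy1, hy2⟩ := mem_closure_iff.1 hgt _ isOpen_interior hint
      exact htO p hp y hy2 (interior_subset hy1)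
    have hpre : IsPreconnected (frontier (O p)) :=
      frontier_preconn (htp p hp) (hOc p hp) (hOp p hp) (htO p hp) (hfr p hp)
    by_contra hcon
    rw [Set.not_subset] at hcon
    obtain ⟨x, hxf, hxG⟩ := hcon
    obtain ⟨z, hzf, hz1, hz2⟩ := hpre (interior {x | (¬ ∃ i, T x = {i}) → x ∈ G}) Gᶜ isOpen_interior
      hG.isOpen_compl (by
        intro y hy
        by_cases hyG : y ∈ G
        · exact Or.inl (mem_interior_iff_mem_nhds.2 (hloc y hyG))
        · exact Or.inr hyG)
      ⟨g, hgf, mem_interior_iff_mem_nhds.2 (hloc g hgG)⟩ ⟨x, hxf, hxG⟩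
    have hz3 : z ∈ O p := by
      rw [(hOc p hp).frontier_eq] at hzf; exact hzf.1
    refine hz2 (interior_subset hz1 (htc p hp z (hfr p hp hzf) fun hzt => htO p hp z hzt hz3))
  -- the covered set
  have hP : IsClopen (G ∪ {y | ∃ p : ℂ × Fin k, T p.1 = {p.2} ∧ (closure (t p) ∩ G).Nonempty ∧
      y ∉ O p}) := by
    constructor
    · rw [← isOpen_compl_iff, Metric.isOpen_iff]
      intro x hx
      rw [mem_compl_iff, mem_union, not_or] at hx
      obtain ⟨r, hr, hball⟩ := Metric.isOpen_iff.1 hG.isOpen_compl x hx.1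
      refine ⟨r, hr, fun w hw => ?_⟩
      rw [mem_compl_iff, mem_union, not_or]
      refine ⟨hball hw, ?_⟩
      rintro ⟨p, hp, hpG, hwO⟩
      refine hx.2 ⟨p, hp, hpG, fun hxO => ?_⟩
      obtain ⟨z, hz, hzf⟩ := exists_frontier (convex_ball x r).isPreconnected (mem_ball_self hr) hxO
        hw hwO
      exact hball hz (key p hp hpG hzf)
    · rw [Metric.isOpen_iff]
      rintro x (hxG | ⟨p, hp, hpG, hxO⟩)
      · obtain ⟨r, hr, hball⟩ := Metric.mem_nhds_iff.1 (hloc x hxG)
        refine ⟨r, hr, fun y hy => ?_⟩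
        by_cases hys : ∃ i, T y = {i}
        · right
          obtain ⟨i, hi⟩ := hys
          refine ⟨(y, i), hi, ?_, htO (y, i) hi y (hxt (y, i) hi)⟩
          have hxt' : x ∉ t (y, i) := fun hx => hGs x hxG ⟨_, htT (y, i) hi x hx⟩
          obtain ⟨z, hz, hzf⟩ := exists_frontier (convex_ball x r).isPreconnected hy
            (hxt (y, i) hi) (mem_ball_self hr) hxt'
          have hzt : z ∉ t (y, i) := fun hzt => hzf.2 (by rwa [(hto (y, i) hi).interior_eq])
          exact ⟨z, hzf.1, hball hz (htc (y, i) hi z hzf.1 hzt)⟩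
        · exact Or.inl (hball hy hys)
      · obtain ⟨r, hr, hball⟩ := Metric.isOpen_iff.1 (hOc p hp).isOpen_compl x hxO
        exact ⟨r, hr, fun y hy => Or.inr ⟨p, hp, hpG, hball hy⟩⟩
  obtain ⟨g0, hg0⟩ := hne
  have huniv := hP.eq_univ ⟨g0, Or.inl hg0⟩
  intro x hx
  have hxP : x ∈ G ∪ {y | ∃ p : ℂ × Fin k, T p.1 = {p.2} ∧ (closure (t p) ∩ G).Nonempty ∧
      y ∉ O p} := by rw [huniv]; exact mem_univ x
  rcases hxP with h1 | ⟨p, hp, -, hxO⟩
  · exact h1
  · exact absurd (hOU p hp x hxO) (hx _)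

end Irr

end Vale.Agent.P032.Six
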