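import Vale.Agent.P032.R2.H171.Wedge
import Vale.Agent.P032.R2.H833.Skeleton

/-!
# P032, W4.M4 (given local finiteness): the world of full ends is empty

`Irr.m4_of_lf` : a nonempty locally finite set `E` of points `v` which see three different two-pair
centres `ab | ..`, `be | ..`, `ea | ..` (`T v ⊆ {a, b, e}`), such that every exact half arc of a
two-pair centre which starts in `E` is exact up to a point of `E`, does not exist.
-/

open Set Filter Topology Metric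

noncomputable section

namespace Vale.Agent.P032.Six

variable {k : ℕ} {U : Fin k → Set ℂ} {T : ℂ → Set (Fin k)}

/-- `v` sees three different two-pair centres, one for each pair of its colours -/
def Tri (T : ℂ → Set (Fin k)) (v : ℂ) : Prop :=
  ∃ (M1 M2 M3 : ℂ) (a b e c1 d1 c2 d2 c3 d3 : Fin k), T v ⊆ {a, b, e} ∧
    DPt T M1 a b c1 d1 ∧ DPt T M2 b e c2 d2 ∧ DPt T M3 e a c3 d3 ∧
    dist v M1 = 1 ∧ dist v M2 = 1 ∧ dist v M3 = 1 ∧ M1 ≠ M2 ∧ M2 ≠ M3 ∧ M3 ≠ M1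

/-- the half arc of `S(M)` from `v` on the side `o` has palette `P` up to the parameter `l`, where it
meets `E` -/
def LegK (T : ℂ → Set (Fin k)) (E : Set ℂ) (M v : ℂ) (o l : ℝ) (P : Set (Fin k)) : Prop :=
  0 < l ∧ (∀ t : ℝ, 0 < t → t < l → T (M + (v - M) * cis (o * t)) = P) ∧
    M + (v - M) * cis (o * l) ∈ E

/-- the points of a leg -/
def LegS (M v : ℂ) (o l : ℝ) : Set ℂ := (fun t : ℝ => M + (v - M) * cis (o * t)) '' Icc 0 l

theorem isCompact_LegS (M v : ℂ) (o l : ℝ) : IsCompact (LegS M v o l) := by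
  refine isCompact_Icc.image ?_
  have := continuous_cis
  fun_prop

theorem dist_LegS {M v : ℂ} {o l : ℝ} (hv : dist v M = 1) {x : ℂ} (hx : x ∈ LegS M v o l) :
    dist x M = 1 := by
  obtain ⟨t, -, rfl⟩ := hx
  rw [dist_eq_norm] at hv ⊢
  rw [add_sub_cancel_left, norm_mul, norm_cis, hv, one_mul]

/-- interior points of a leg -/
theorem arc_of_leg {E : Set ℂ} {M v : ℂ} {o l : ℝ} {P : Set (Fin k)} (ho : o = 1 ∨ o = -1)
    (hv : dist v M = 1) (hL : LegK T E M v o l P) {t : ℝ} (h0 : 0 < t) (h1 : t < l) :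
    Arc T M (M + (v - M) * cis (o * t)) P ∧
      ∀ᶠ x in 𝓝 (M + (v - M) * cis (o * t)), dist x M = 1 → x ∈ LegS M v o l := by
  set g := M + (v - M) * cis (o * t) with hg
  have hgM : dist g M = 1 := dist_LegS (l := l) hv ⟨t, ⟨h0.le, h1.le⟩, rfl⟩
  have ho2 : o * o = 1 := by rcases ho with rfl | rfl <;> norm_num
  have key : ∀ᶠ x in 𝓝 g, dist x M = 1 → ∃ s : ℝ, 0 < s ∧ s < l ∧
      x = M + (v - M) * cis (o * s) := by
    filter_upwards [near_circle hgM (δ := min t (l - t)) (lt_min h0 (by linarith))] with x hx hxM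
    obtain ⟨s, hs, rfl⟩ := hx hxM
    have hs1 : |o * s| < min t (l - t) := by
      rcases ho with rfl | rfl
      · simpa using hs
      · simpa using hs
    rw [lt_min_iff, abs_lt, abs_lt] at hs1
    refine ⟨t + o * s, by linarith [hs1.1.1], by linarith [hs1.2.2], ?_⟩
    have h2 : o * (t + o * s) = o * t + s := by rw [mul_add, ← mul_assoc, ho2, one_mul]
    rw [h2, hg, add_sub_cancel_left, mul_assoc]
    congr 2
    unfold cis
    rw [← Complex.exp_add]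
    congr 1
    push_cast
    ring
  refine ⟨⟨hgM, ?_⟩, ?_⟩
  · rw [eventually_nhdsWithin_iff]
    filter_upwards [key] with x hx hxM
    obtain ⟨s, hs0, hs1, rfl⟩ := hx hxM
    exact hL.2.1 s hs0 hs1
  · filter_upwards [key] with x hx hxM
    obtain ⟨s, hs0, hs1, rfl⟩ := hx hxM
    exact ⟨s, ⟨hs0.le, hs1.le⟩, rfl⟩

/-- a leg is a local part of the skeleton -/
theorem Irr.leg_local (h : Irr U T) {E : Set ℂ} {M v : ℂ} {o l : ℝ} {a b c d : Fin k}
    (ho : o = 1 ∨ o = -1) (hM : DPt T M a b c d) (hv : dist v M = 1)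
    (hL : LegK T E M v o l {a, b}) {t : ℝ} (h0 : 0 < t) (h1 : t < l) :
    ∀ᶠ x in 𝓝 (M + (v - M) * cis (o * t)), (¬ ∃ i, T x = {i}) → x ∈ LegS M v o l := by
  obtain ⟨h2, h3⟩ := arc_of_leg ho hv hL h0 h1
  filter_upwards [h.arc_local hM h2, h3] with x h4 h5 h6
  by_cases hx : dist x M = 1
  · exact h5 hx
  · exact absurd (h4.1 hx) h6

/-- a two-pair centre is in `XX` and has four colours -/
theorem DPt.mem_XX {z : ℂ} {a b c d : Fin k} (hz : DPt T z a b c d) (h : Irr U T) : z ∈ XX U := by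
  obtain ⟨p, hp⟩ := hz.arc1
  refine h.mem_XX (x := z) (y := p) (i := a) (by rw [dist_comm]; exact hp.1) ?_ (h.sub p ?_)
  · rw [hz.pal]; simp
  · rw [hp.mem]; simp

theorem DPt.not_sub3 {z : ℂ} {a b c d : Fin k} (hz : DPt T z a b c d) {x y w : Fin k} :
    ¬ T z ⊆ {x, y, w} := by
  intro hs
  have h1 : ({a, b, c, d} : Set (Fin k)).ncard = 4 := by
    rw [Set.ncard_insert_of_notMem, Set.ncard_insert_of_notMem, Set.ncard_pair hz.cd]
    · simp [hz.bc, hz.bd]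
    · simp [hz.ab, hz.ac, hz.ad]
  have h2 : ({x, y, w} : Set (Fin k)).ncard ≤ 3 := by
    refine (Set.ncard_insert_le _ _).trans ?_
    have := Set.ncard_insert_le y ({w} : Set (Fin k))
    rw [Set.ncard_singleton] at this
    omega
  rw [hz.pal] at hs
  have := Set.ncard_le_ncard hs (Set.toFinite _)
  omega

/-- the three legs at a point of `E` -/
theorem Irr.exists_star (h : Irr U T) {E : Set ℂ} {v : ℂ} (hvE : v ∈ E) (hv : Tri T v)
    (hleg : ∀ (M : ℂ) (a b c d : Fin k) (o : ℝ), DPt T M a b c d → dist v M = 1 →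
      Harc T M v o {a, b} → ∃ l, LegK T E M v o l {a, b}) :
    ∃ K : Set ℂ, IsCompact K ∧ v ∈ K ∧ (∀ x ∈ K, dist x v ≤ 2) ∧
      (∀ x ∈ K, x ∈ E ∨ (x ∈ XX U ∧ ∃ a b : Fin k, T x = {a, b})) ∧
      (∀ᶠ x in 𝓝 v, (¬ ∃ i, T x = {i}) → x ∈ K) ∧
      ∀ x ∈ K, x ∉ E → ∀ᶠ y in 𝓝 x, (¬ ∃ i, T y = {i}) → y ∈ K := by
  obtain ⟨M1, M2, M3, a, b, e, c1, d1, c2, d2, c3, d3, hT, h1, h2, h3, v1, v2, v3, n12, n23,
    n31⟩ := hv
  obtain ⟨o1, o2, o3, q1, q2, q3, -, -, -, hw⟩ := h.wedge hT h1 h2 h3 v1 v2 v3 n12 n23 n31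
  obtain ⟨l1, L1⟩ := hleg M1 a b c1 d1 o1 h1 v1 q1
  obtain ⟨l2, L2⟩ := hleg M2 b e c2 d2 o2 h2 v2 q2
  obtain ⟨l3, L3⟩ := hleg M3 e a c3 d3 o3 h3 v3 q3
  have hvL : ∀ (M : ℂ) (o l : ℝ), 0 < l → v ∈ LegS M v o l := fun M o l hl =>
    ⟨0, ⟨le_rfl, hl.le⟩, by simp [cis]⟩
  have hd2 : ∀ {M : ℂ} {o l : ℝ}, dist v M = 1 → ∀ x ∈ LegS M v o l, dist x v ≤ 2 := by
    intro M o l hvM x hx
    have h4 := dist_LegS hvM hx
    have h5 := dist_triangle_right x v M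
    linarith
  -- points of a leg
  have hpt : ∀ {M : ℂ} {o l : ℝ} {a b c d : Fin k}, DPt T M a b c d → dist v M = 1 →
      LegK T E M v o l {a, b} → ∀ x ∈ LegS M v o l, x = v ∨ x ∈ E ∨
        ∃ t : ℝ, 0 < t ∧ t < l ∧ x = M + (v - M) * cis (o * t) := by
    rintro M o l a b c d hM hvM hL x ⟨t, ⟨ht0, ht1⟩, rfl⟩
    rcases eq_or_lt_of_le ht0 with rfl | ht0
    · left; simp [cis]
    rcases eq_or_lt_of_le ht1 with rfl | ht1
    · right; left; exact hL.2.2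
    · right; right; exact ⟨t, ht0, ht1, rfl⟩
  have hpal : ∀ {M : ℂ} {o l : ℝ} {a b c d : Fin k}, DPt T M a b c d → dist v M = 1 →
      LegK T E M v o l {a, b} → ∀ x ∈ LegS M v o l,
        x ∈ E ∨ (x ∈ XX U ∧ ∃ a b : Fin k, T x = {a, b}) := by
    intro M o l a b c d hM hvM hL x hx
    rcases hpt hM hvM hL x hx with rfl | h4 | ⟨t, ht0, ht1, rfl⟩
    · exact Or.inl hvE
    · exact Or.inl h4
    · right
      have h5 := hL.2.1 t ht0 ht1
      refine ⟨h.mem_XX (y := M) (i := a) (dist_LegS hvM hx) (by rw [h5]; simp) (h.sub M ?_),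
        a, b, h5⟩
      rw [hM.pal]; simp
  have hloc : ∀ {M : ℂ} {o l : ℝ} {a b c d : Fin k}, (o = 1 ∨ o = -1) → DPt T M a b c d →
      dist v M = 1 → LegK T E M v o l {a, b} → ∀ x ∈ LegS M v o l, x ∉ E →
        ∀ᶠ y in 𝓝 x, (¬ ∃ i, T y = {i}) → y ∈ LegS M v o l := by
    intro M o l a b c d ho hM hvM hL x hx hxE
    rcases hpt hM hvM hL x hx with rfl | h4 | ⟨t, ht0, ht1, rfl⟩
    · exact absurd hvE hxE
    · exact absurd h4 hxE
    · exact h.leg_local ho hM hvM hL ht0 ht1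
  refine ⟨LegS M1 v o1 l1 ∪ (LegS M2 v o2 l2 ∪ LegS M3 v o3 l3),
    (isCompact_LegS _ _ _ _).union ((isCompact_LegS _ _ _ _).union (isCompact_LegS _ _ _ _)),
    Or.inl (hvL M1 o1 l1 L1.1), ?_, ?_, ?_, ?_⟩
  · rintro x (hx | hx | hx)
    · exact hd2 v1 x hx
    · exact hd2 v2 x hx
    · exact hd2 v3 x hx
  · rintro x (hx | hx | hx)
    · exact hpal h1 v1 L1 x hx
    · exact hpal h2 v2 L2 x hx
    · exact hpal h3 v3 L3 x hx
  · filter_upwards [hw (min l1 (min l2 l3)) (lt_min L1.1 (lt_min L2.1 L3.1))] with x hx hs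
    rcases hx with hx | rfl | ⟨t, h0, ht, rfl⟩ | ⟨t, h0, ht, rfl⟩ | ⟨t, h0, ht, rfl⟩
    · exact absurd hx hs
    · exact Or.inl (hvL M1 o1 l1 L1.1)
    · exact Or.inl ⟨t, ⟨h0.le, (ht.trans_le (min_le_left _ _)).le⟩, rfl⟩
    · exact Or.inr (Or.inl ⟨t, ⟨h0.le,
        (ht.trans_le ((min_le_right _ _).trans (min_le_left _ _))).le⟩, rfl⟩)
    · exact Or.inr (Or.inr ⟨t, ⟨h0.le,
        (ht.trans_le ((min_le_right _ _).trans (min_le_right _ _))).le⟩, rfl⟩)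
  · rintro x (hx | hx | hx) hxE
    · exact (hloc q1.1 h1 v1 L1 x hx hxE).mono fun y hy hs => Or.inl (hy hs)
    · exact (hloc q2.1 h2 v2 L2 x hx hxE).mono fun y hy hs => Or.inr (Or.inl (hy hs))
    · exact (hloc q3.1 h3 v3 L3 x hx hxE).mono fun y hy hs => Or.inr (Or.inr (hy hs))

/-- locally finite sets meet closed balls in finite sets -/
theorem finite_of_LF {E : Set ℂ} (LF : ∀ p, ∃ N ∈ 𝓝 p, (E ∩ N).Finite) (p : ℂ) (r : ℝ) :
    (E ∩ closedBall p r).Finite := by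
  choose N hN hf using LF
  obtain ⟨t, -, ht⟩ := (isCompact_closedBall p r).elim_nhds_subcover N fun x _ => hN x
  refine (t.finite_toSet.biUnion fun x _ => hf x).subset ?_
  rintro x ⟨hxE, hx⟩
  obtain ⟨y, hy, hxy⟩ := mem_iUnion₂.1 (ht hx)
  exact mem_iUnion₂.2 ⟨y, hy, hxE, hxy⟩

/-- **M4, given local finiteness** -/
theorem Irr.m4_of_lf (h : Irr U T) {E : Set ℂ} (hne : E.Nonempty) (hE : ∀ v ∈ E, Tri T v)
    (hleg : ∀ v ∈ E, ∀ (M : ℂ) (a b c d : Fin k) (o : ℝ), DPt T M a b c d → dist v M = 1 →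
      Harc T M v o {a, b} → ∃ l, LegK T E M v o l {a, b})
    (LF : ∀ p, ∃ N ∈ 𝓝 p, (E ∩ N).Finite) : False := by
  choose! K hKc hvK hK2 hKp hKv hKl using
    fun (v : ℂ) (hv : v ∈ E) => h.exists_star hv (hE v hv) (hleg v hv)
  have hEX : E ⊆ XX U := by
    intro v hv
    obtain ⟨M1, M2, M3, a, b, e, c1, d1, c2, d2, c3, d3, hT, h1, h2, h3, v1, v2, v3, n12, n23,
      n31⟩ := hE v hv
    obtain ⟨i, hi⟩ := h.ne v
    rcases hT hi with rfl | rfl | rfl
    · exact h.mem_XX v1 hi (h.sub _ (by rw [h1.pal]; simp))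
    · exact h.mem_XX v1 hi (h.sub _ (by rw [h1.pal]; simp))
    · exact h.mem_XX v2 hi (h.sub _ (by rw [h2.pal]; simp))
  have hG : IsClosed (⋃ v ∈ E, K v) := by
    have h1 : LocallyFinite fun v : E => K v := by
      intro p
      refine ⟨ball p 1, Metric.ball_mem_nhds p one_pos, ?_⟩
      refine Set.Finite.of_finite_image (f := Subtype.val) ?_ Subtype.val_injective.injOn
      refine (finite_of_LF LF p 3).subset ?_
      rintro _ ⟨v, ⟨x, hx, hxp⟩, rfl⟩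
      refine ⟨v.2, ?_⟩
      have h2 := hK2 v v.2 x hx
      have h3 := dist_triangle_left (v : ℂ) p x
      rw [mem_ball] at hxp
      rw [mem_closedBall]
      linarith
    have h2 := h1.isClosed_iUnion fun v => (hKc v v.2).isClosed
    rwa [iUnion_subtype] at h2
  obtain ⟨v0, hv0⟩ := hne
  have hsub : XX U ⊆ ⋃ v ∈ E, K v := by
    refine h.skeleton hG ⟨v0, mem_biUnion hv0 (hvK v0 hv0)⟩ ?_ ?_
    · intro x hx
      obtain ⟨v, hv, hxv⟩ := mem_iUnion₂.1 hx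
      rcases hKp v hv x hxv with h1 | h1
      · exact hEX h1
      · exact h1.1
    · intro x hx
      obtain ⟨v, hv, hxv⟩ := mem_iUnion₂.1 hx
      by_cases hxE : x ∈ E
      · exact (hKv x hxE).mono fun y hy hs => mem_biUnion hxE (hy hs)
      · exact (hKl v hv x hxv hxE).mono fun y hy hs => mem_biUnion hv (hy hs)
  obtain ⟨M1, M2, M3, a, b, e, c1, d1, c2, d2, c3, d3, hT, h1, -⟩ := hE v0 hv0
  obtain ⟨v, hv, hMv⟩ := mem_iUnion₂.1 (hsub (h1.mem_XX h))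
  rcases hKp v hv M1 hMv with h4 | ⟨-, a', b', h4⟩
  · obtain ⟨-, -, -, a', b', e', -, -, -, -, -, -, hT', -⟩ := hE M1 h4
    exact h1.not_sub3 hT'
  · refine h1.not_sub3 (x := a') (y := b') (w := b') ?_
    rw [h4]; simp

end Vale.Agent.P032.Six
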