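import Vale.Agent.P032.R2.H171.LF1
import Vale.Agent.P032.R2.H833.M4

/-!
# P032, W4.M4 (given local finiteness) for the worlds of full ends `Wld T E`
-/

open Set Filter Topology Metric

noncomputable section

namespace Vale.Agent.P032.Six

variable {U : Fin 6 → Set ℂ} {T : ℂ → Set (Fin 6)} {E : Set ℂ}

/-- the orientation of the exact half arc at a full end is unique -/
theorem Wld.orient (W : Wld T E) (h : Irr U T) {v M : ℂ} {i j k : Fin 6} (hv : v ∈ E)
    (H : HbL T v M i j k) :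
    ∃ o1, ∀ o, (o = 1 ∨ o = -1) →
      (∀ᶠ t : ℝ in 𝓝[>] 0, T (M + (v - M) * cis (o * t)) = {i, j}) → o = o1 := by
  obtain ⟨-, M2, M3, -, g2, g3⟩ := W.three hv H.pal
  obtain ⟨s1, s2, s3, Wd⟩ := wd_of_hub h H g2 g3
  obtain ⟨o1, -, -, r1, -, -, r2, -⟩ := Wd.wedge h
  refine ⟨o1, fun o ho hev => ?_⟩
  by_contra hne
  have ho' : o = -o1 := by
    rcases ho with rfl | rfl
    · rcases r1.1 with rfl | rfl
      · exact absurd rfl hne
      · norm_num
    · rcases r1.1 with rfl | rfl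
      · rfl
      · exact absurd rfl hne
  subst ho'
  obtain ⟨t, ht1, ht2⟩ := (hev.and r2.2).exists
  have hi : i ∈ ({k} : Set (Fin 6)) := by rw [← ht2, ht1]; simp
  exact H.ik hi

/-- **M4 for the worlds, given local finiteness** -/
theorem Wld.m4_of_lf (h : Irr U T) (W : Wld T E) (hE : E.Nonempty)
    (lf : ∀ p, ¬ ∃ᶠ v in 𝓝[≠] p, v ∈ E) : False := by
  refine h.m4_of_lf (E := E) hE ?_ ?_ ?_
  · intro v hv
    obtain ⟨i, j, k, hij, hik, hjk, hT⟩ := Set.ncard_eq_three.1 (W.card v hv)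
    obtain ⟨M1, M2, M3, h1, h2, h3⟩ := W.three hv hT
    obtain ⟨c1, d1, g1⟩ := h1.dp
    obtain ⟨c2, d2, g2⟩ := h2.dp
    obtain ⟨c3, d3, g3⟩ := h3.dp
    refine ⟨M1, M2, M3, i, j, k, c1, d1, c2, d2, c3, d3, hT.subset, g1, g2, g3, h1.dst, h2.dst,
      h3.dst, ?_, ?_, ?_⟩
    · rintro rfl; exact h1.out h2.j_mem
    · rintro rfl; exact h2.out h3.j_mem
    · rintro rfl; exact h3.out h1.j_mem
  · intro v hv M a b c d o hM hvM hH
    have hev := hH.2
    -- the colours of the pair belong to `v`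
    have hcont : Tendsto (fun t : ℝ => M + (v - M) * cis (o * t)) (𝓝[>] 0) (𝓝 v) := by
      have h1 : Continuous fun t : ℝ => M + (v - M) * cis (o * t) := by
        have := continuous_cis
        fun_prop
      have h2 := h1.tendsto 0
      simp only [mul_zero, cis_zero171, mul_one, add_sub_cancel] at h2
      exact h2.mono_left nhdsWithin_le_nhds
    obtain ⟨t, ht1, ht2⟩ := (hev.and (hcont.eventually (h.nhd v))).exists
    have ha : a ∈ T v := ht2 (by rw [ht1]; simp)
    have hb : b ∈ T v := ht2 (by rw [ht1]; simp)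
    obtain ⟨e, hT, -, -⟩ := triple_of (W.card v hv) ha hb hM.ab
    obtain ⟨M1, M2, M3, h1, h2, h3⟩ := W.three hv hT
    obtain ⟨s1, s2, s3, Wd⟩ := wd_of_hub h h1 h2 h3
    have haM : a ∈ T M := by rw [hM.pal]; simp
    have hbM : b ∈ T M := by rw [hM.pal]; simp
    have hMM : M = M1 := by
      rcases Wd.factA h hvM (h.sub _ haM) (h.sub _ hbM) with h4 | h4 | h4
      · exact h4
      · subst h4; exact absurd haM h2.out
      · subst h4; exact absurd hbM h3.out
    subst hMM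
    obtain ⟨o', l, L⟩ := W.leg v hv M a b e h1
    obtain ⟨o1, ho1⟩ := W.orient h hv h1
    have e1 := ho1 o hH.1 hH.2
    have e2 := ho1 o' L.o1 L.ev
    refine ⟨l, L.pos, ?_, ?_⟩
    · rw [e1, ← e2]; exact L.arc
    · rw [e1, ← e2]; exact L.fin
  · intro p
    have h1 : ∀ᶠ v in 𝓝[≠] p, v ∉ E := by
      have := lf p
      rwa [not_frequently] at this
    obtain ⟨N, hN, hN2⟩ := (eventually_nhdsWithin_iff.1 h1).exists_mem
    refine ⟨N, hN, (Set.finite_singleton p).subset ?_⟩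
    rintro x ⟨hxE, hxN⟩
    by_contra hne
    exact hN2 x hxN hne hxE

end Vale.Agent.P032.Six
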