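import Vale.Agent.P032.R2.H833.HubC
import Vale.Agent.P032.R2.H833.M4W
import Vale.Agent.P032.S5.H12.En

/-!
# P032, W4.NET: every full end sees three hubs

`HubC.middle`: at every full end `v` there are a middle hub `M` and two side hubs `v + q - M`,
`v + q' - M` (`q`, `q'` full ends of `M` with the complementary palette).
-/

open Set Filter Topology Metric

noncomputable section

namespace Vale.Agent.P032.Six


variable {U : Fin 6 → Set ℂ} {T : ℂ → Set (Fin 6)} {z v q : ℂ}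

theorem EE.en' (hv : EE T z v) {X : Set (Fin 6)} (hX : T v = X) : En T X z v := by
  obtain ⟨⟨o, ho, hd, h4, h3, h2, ε, hε, hg⟩, -⟩ := hv
  subst hX
  exact ⟨rfl, h4, h2, hd, o, ε, ho, hε, hg⟩

namespace HubC

/-- the complementary full end -/
theorem compl_end (H : HubC U T) (h : Irr U T) (hv : EE T z v) : ∃ q, EE T z q ∧ T q = (T v)ᶜ := by
  obtain ⟨a, b, c, d, h1, h2⟩ := hv.names
  have hz := hv.dpt h h1 h2
  have hsub : T z \ T v ⊆ (T v)ᶜ := fun i hi => hi.2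
  obtain ⟨f, hf, hTf⟩ := exists_third (ncard_compl_three hv.card_v) (P := T z \ T v) hsub hv.card_s
  have hfT : f ∈ (T v)ᶜ := by rw [hTf]; exact mem_insert _ _
  have hfz : f ∉ T z := fun h5 => hf ⟨h5, hfT⟩
  obtain ⟨q, hq, hTq⟩ := H.full hz.swap hfz
  refine ⟨q, hq, ?_⟩
  rw [hTq, hTf, h2]
  ext i
  simp only [mem_insert_iff, mem_singleton_iff]
  tauto

/-- one hub per pair -/
theorem uniq (H : HubC U T) (h : Irr U T) {z₁ z₂ : ℂ} (h1 : EE T z₁ v) (h2 : EE T z₂ v)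
    (hP : T z₁ ∩ T v = T z₂ ∩ T v) : z₁ = z₂ := by
  obtain ⟨q1, g1, e1⟩ := H.compl_end h h1
  obtain ⟨q2, g2, e2⟩ := H.compl_end h h2
  exact h.en_unique h1.card_v (h1.en' rfl) (h2.en' rfl) (g1.en' e1) (g2.en' e2) hP

/-- at most three hubs -/
theorem three (H : HubC U T) (h : Irr U T) {z₁ z₂ z₃ z₄ : ℂ} (h1 : EE T z₁ v) (h2 : EE T z₂ v)
    (h3 : EE T z₃ v) (h4 : EE T z₄ v) :
    z₁ = z₂ ∨ z₁ = z₃ ∨ z₁ = z₄ ∨ z₂ = z₃ ∨ z₂ = z₄ ∨ z₃ = z₄ := by
  obtain ⟨q1, g1, e1⟩ := H.compl_end h h1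
  obtain ⟨q2, g2, e2⟩ := H.compl_end h h2
  obtain ⟨q3, g3, e3⟩ := H.compl_end h h3
  obtain ⟨q4, g4, e4⟩ := H.compl_end h h4
  exact h.en_three h1.card_v ⟨h1.en' rfl, q1, g1.en' e1⟩ ⟨h2.en' rfl, q2, g2.en' e2⟩
    ⟨h3.en' rfl, q3, g3.en' e3⟩ ⟨h4.en' rfl, q4, g4.en' e4⟩

theorem ne_z (h : Irr U T) (hv : EE T z v) (hq : EE T z q) (hc : T q = (T v)ᶜ) :
    v + q - z ≠ z := fun h5 => hv.anti h hq hc (by linear_combination h5)

/-- the second centre of a pair of neighbours does not see a third neighbour -/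
theorem no_third (H : HubC U T) (h : Irr U T) (h4 : ∀ z, (T z).ncard ≤ 4) {q₁ q₂ q' : ℂ}
    (hv : EE T z v) (h1 : EE T z q₁) (c1 : T q₁ = (T v)ᶜ) (h2 : EE T z q₂) (c2 : T q₂ = (T v)ᶜ)
    (h12 : q₁ ≠ q₂) (h3 : EE T (v + q₁ - z) q') (c3 : T q' = (T v)ᶜ) : q' = q₁ := by
  by_contra hne
  have w1 := hv.rh h h4 h1 c1
  have w1' := hv.rh' h h4 h1 c1
  have w2 := hv.rh h h4 h2 c2
  have w2' := hv.rh' h h4 h2 c2
  have r := w1.rh h h4 h3 c3
  have r' := w1.rh' h h4 h3 c3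
  have hc : v + q' - (v + q₁ - z) = v + q₂ - z := by
    rcases H.three h hv w1 w2 r with h5 | h5 | h5 | h5 | h5 | h5
    · exact absurd h5.symm (ne_z h hv h1 c1)
    · exact absurd h5.symm (ne_z h hv h2 c2)
    · exact absurd (by linear_combination -h5) hne
    · exact absurd (by linear_combination h5) h12
    · exact absurd h5.symm (ne_z h w1 h3 c3)
    · exact h5.symm
  have hq : q' = (v + q₁ - z) + (v + q₂ - z) - v := by linear_combination hc
  have e1 : z + (v + q₁ - z) - v = q₁ := by ring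
  have e2 : z + (v + q₂ - z) - v = q₂ := by ring
  refine H.tri (v := v) (c₁ := z) (c₂ := v + q₁ - z) (c₃ := v + q₂ - z) hv w1 w2
    (ne_z h hv h1 c1).symm (ne_z h hv h2 c2).symm (fun h5 => h12 (by linear_combination h5))
    ?_ ?_ ?_ ?_ ?_ ?_
  · rw [e1]; exact h1
  · rw [e1]; exact c1
  · rw [e2]; exact h2
  · rw [e2]; exact c2
  · rw [← hq]; exact h3
  · rw [← hq]; exact c3

/-- **the middle hub** -/
theorem middle (H : HubC U T) (h : Irr U T) (h4 : ∀ z, (T z).ncard ≤ 4) (hv : EE T z v) :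
    ∃ M q q', EE T M v ∧ EE T M q ∧ EE T M q' ∧ T q = (T v)ᶜ ∧ T q' = (T v)ᶜ ∧ q ≠ q' := by
  obtain ⟨q, hq, cq⟩ := H.compl_end h hv
  rcases H.two hv hq cq with ⟨v₁, n1, s1, c1⟩ | ⟨q', n1, s1, c1⟩
  · have w := hv.rh h h4 hq cq
    have w' := hv.rh' h h4 hq cq
    rcases H.two w w' cq with ⟨v₂, n2, s2, c2⟩ | ⟨q', n2, s2, c2⟩
    · exfalso
      have cv : T v = (T q)ᶜ := by rw [cq, compl_compl]
      have cv1 : T v₁ = (T q)ᶜ := by rw [cq, compl_compl, c1]
      have cv2 : T v₂ = (T q)ᶜ := by rw [cq, compl_compl, c2]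
      refine n2 (H.no_third h h4 (z := z) (v := q) (q₁ := v) (q₂ := v₁) hq hv cv s1 cv1 n1.symm ?_
        cv2)
      rw [show q + v - z = v + q - z by ring]
      exact s2
    · exact ⟨v + q - z, q, q', w, w', s2, cq, c2.trans cq, n2.symm⟩
  · exact ⟨z, q, q', hv, hq, s1, cq, c1.trans cq, n1.symm⟩

end HubC

/-- the missing colour of an end at its hub -/
theorem EE.missing (hv : EE T z v) : ∃ r ∈ T v, r ∉ T z ∧ T z ∩ T v = T v \ {r} := by
  obtain ⟨r, hr, hTr⟩ := exists_third hv.card_v (P := T z ∩ T v) inter_subset_right hv.card_i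
  have hrv : r ∈ T v := by rw [hTr]; exact mem_insert _ _
  refine ⟨r, hrv, fun h5 => hr ⟨h5, hrv⟩, ?_⟩
  ext i
  constructor
  · intro hi
    exact ⟨hi.2, fun h5 => hr (h5 ▸ hi)⟩
  · rintro ⟨hi, hir⟩
    rw [hTr] at hi
    rcases hi with rfl | hi
    · exact absurd rfl hir
    · exact hi

/-- a hub of the full end -/
theorem EE.hb (h : Irr U T) (hv : EE T z v) {i j k : Fin 6} (hT : T v = {i, j, k}) (hk : k ∉ T z) :
    HbL T v z i j k := by
  obtain ⟨r, hr, hrz, hP⟩ := hv.missing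
  obtain ⟨a, b, c, d, h1, h2⟩ := hv.names
  have hrk : r = k := by
    by_contra hne
    have : k ∈ T v \ {r} := ⟨by rw [hT]; simp, fun h5 => hne h5.symm⟩
    rw [← hP] at this
    exact hk this.1
  subst hrk
  have hc := hv.card_v
  have hij : i ≠ j := by
    rintro rfl
    rw [hT] at hc
    have h5 : ({i, i, r} : Set (Fin 6)) = {i, r} := by simp
    rw [h5] at hc
    have := Set.ncard_insert_le i ({r} : Set (Fin 6))
    rw [Set.ncard_singleton] at this
    omega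
  have hir : i ≠ r := by
    rintro rfl
    rw [hT] at hc
    have h5 : ({i, j, i} : Set (Fin 6)) = {j, i} := by
      ext m; simp only [mem_insert_iff, mem_singleton_iff]; tauto
    rw [h5] at hc
    have := Set.ncard_insert_le j ({i} : Set (Fin 6))
    rw [Set.ncard_singleton] at this
    omega
  have hjr : j ≠ r := by
    rintro rfl
    rw [hT] at hc
    have h5 : ({i, j, j} : Set (Fin 6)) = {i, j} := by
      ext m; simp only [mem_insert_iff, mem_singleton_iff]; tauto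
    rw [h5] at hc
    have := Set.ncard_insert_le i ({j} : Set (Fin 6))
    rw [Set.ncard_singleton] at this
    omega
  have hij' : T z ∩ T v = {i, j} := by
    rw [hP, hT]
    ext m
    simp only [Set.mem_sdiff, mem_insert_iff, mem_singleton_iff]
    constructor
    · rintro ⟨h5 | h5 | h5, h6⟩
      · exact Or.inl h5
      · exact Or.inr h5
      · exact absurd h5 h6
    · rintro (rfl | rfl)
      · exact ⟨Or.inl rfl, hir⟩
      · exact ⟨Or.inr (Or.inl rfl), hjr⟩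
  exact ⟨hT, hk, hv.dist, c, d, hv.dpt h hij' h2⟩

/-- the set of full ends -/
def FEnd (T : ℂ → Set (Fin 6)) : Set ℂ := {v | ∃ z, EE T z v}

namespace HubC

/-- **the three hubs with their geometry** -/
theorem tripod (H : HubC U T) (h : Irr U T) (h4 : ∀ z, (T z).ncard ≤ 4) (hv : EE T z v) :
    ∃ M N N' : ℂ, ∃ r s t : Fin 6, EE T M v ∧ EE T N v ∧ EE T N' v ∧
      r ∉ T M ∧ s ∉ T N ∧ t ∉ T N' ∧ r ≠ s ∧ r ≠ t ∧ s ≠ t ∧ T v = {r, s, t} ∧
      (∀ m, m ∈ T M ∨ m ∈ T N) ∧ (∀ m, m ∈ T M ∨ m ∈ T N') := by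
  obtain ⟨M, q, q', hM, hq, hq', cq, cq', hne⟩ := H.middle h h4 hv
  have hN := hM.rh h h4 hq cq
  have hN' := hM.rh h h4 hq' cq'
  obtain ⟨r, hr, hrM, er⟩ := hM.missing
  obtain ⟨s, hs, hsN, es⟩ := hN.missing
  obtain ⟨t, ht, htN, et⟩ := hN'.missing
  have hrs : r ≠ s := by
    rintro rfl
    exact ne_z h hM hq cq (H.uniq h hN hM (by rw [es, er]))
  have hrt : r ≠ t := by
    rintro rfl
    exact ne_z h hM hq' cq' (H.uniq h hN' hM (by rw [et, er]))
  have hst : s ≠ t := by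
    rintro rfl
    have := H.uniq h hN hN' (by rw [es, et])
    exact hne (by linear_combination this)
  refine ⟨M, v + q - M, v + q' - M, r, s, t, hM, hN, hN', hrM, hsN, htN, hrs, hrt, hst, ?_,
    fun m => hM.cov h h4 hq cq m, fun m => hM.cov h h4 hq' cq' m⟩
  symm
  refine Set.eq_of_subset_of_ncard_le ?_ ?_ (Set.toFinite _)
  · rintro m (rfl | rfl | rfl) <;> assumption
  · rw [hv.card_v, Set.ncard_eq_three.2 ⟨r, s, t, hrs, hrt, hst, rfl⟩]

/-- the hub with a given missing colour -/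
theorem hub (H : HubC U T) (h : Irr U T) (h4 : ∀ z, (T z).ncard ≤ 4) (hv : EE T z v)
    {i j k : Fin 6} (hT : T v = {i, j, k}) : ∃ M, EE T M v ∧ HbL T v M i j k := by
  obtain ⟨M, N, N', r, s, t, hM, hN, hN', hr, hs, ht, -, -, -, hrst, -⟩ := H.tripod h h4 hv
  have hk : k ∈ ({r, s, t} : Set (Fin 6)) := by rw [← hrst, hT]; simp
  rcases hk with rfl | rfl | hk
  · exact ⟨M, hM, hM.hb h hT hr⟩
  · exact ⟨N, hN, hN.hb h hT hs⟩
  · rw [mem_singleton_iff] at hk
    subst hk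
    exact ⟨N', hN', hN'.hb h hT ht⟩

/-- every hub is an `EE` hub -/
theorem hb_ee (H : HubC U T) (h : Irr U T) (h4 : ∀ z, (T z).ncard ≤ 4) (hv : EE T z v) {M : ℂ}
    {i j k : Fin 6} (hM : HbL T v M i j k) : EE T M v := by
  obtain ⟨M1, g1, h1⟩ := H.hub h h4 hv hM.pal
  obtain ⟨M2, g2, h2⟩ := H.hub h h4 hv (show T v = {j, k, i} by rw [hM.pal, triple_rot])
  obtain ⟨M3, g3, h3⟩ := H.hub h h4 hv
    (show T v = {k, i, j} by rw [hM.pal, triple_rot, triple_rot])
  obtain ⟨s1, s2, s3, Wd⟩ := wd_of_hub h h1 h2 h3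
  rcases Wd.factA h hM.dst (h.sub _ hM.i_mem) (h.sub _ hM.j_mem) with rfl | rfl | rfl
  · exact g1
  · exact g2
  · exact g3

theorem rhomb (H : HubC U T) (h : Irr U T) (h4 : ∀ z, (T z).ncard ≤ 4) (hv : EE T z v) {M : ℂ}
    {i j k : Fin 6} (hM : HbL T v M i j k) :
    ∃ N, (HbL T v N i k j ∨ HbL T v N j k i) ∧ ∀ m, m ∈ T M ∨ m ∈ T N := by
  have gM := H.hb_ee h h4 hv hM
  -- a hub with another missing colour
  have key : ∀ {N : ℂ} {s : Fin 6}, EE T N v → s ∉ T N → s ∈ T v → s ≠ k →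
      (HbL T v N i k j ∨ HbL T v N j k i) := by
    intro N s hN hs hsv hsk
    rw [hM.pal] at hsv
    rcases hsv with rfl | rfl | hsv
    · right
      exact hN.hb h (by rw [hM.pal, triple_rot]) hs
    · left
      refine hN.hb h ?_ hs
      rw [hM.pal]; ext m; simp only [mem_insert_iff, mem_singleton_iff]; tauto
    · exact absurd hsv hsk
  obtain ⟨M0, N, N', r, s, t, h0, hN, hN', hr, hs, ht, hrs, hrt, hst, hrst, c1, c2⟩ :=
    H.tripod h h4 hv
  have mr : r ∈ T v := by rw [hrst]; simp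
  have ms : s ∈ T v := by rw [hrst]; simp
  have hk : k ∈ ({r, s, t} : Set (Fin 6)) := by rw [← hrst, hM.pal]; simp
  -- the hub with the missing colour `k` is `M`
  have heq : ∀ {N : ℂ}, EE T N v → k ∉ T N → M = N := by
    intro N hN hkN
    obtain ⟨x, hx, hxz, ex⟩ := hN.missing
    obtain ⟨y, hy, hyz, ey⟩ := gM.missing
    have hkv : k ∈ T v := hM.kv
    have hxk : x = k := by
      by_contra hne
      have : k ∈ T v \ {x} := ⟨hkv, fun h5 => hne h5.symm⟩
      rw [← ex] at this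
      exact hkN this.1
    have hyk : y = k := by
      by_contra hne
      have : k ∈ T v \ {y} := ⟨hkv, fun h5 => hne h5.symm⟩
      rw [← ey] at this
      exact hM.out this.1
    exact H.uniq h gM hN (by rw [ex, ey, hxk, hyk])
  rcases hk with rfl | rfl | hk
  · have := heq h0 hr
    subst this
    exact ⟨N, key hN hs ms hrs.symm, c1⟩
  · have := heq hN hs
    subst this
    exact ⟨M0, key h0 hr mr hrs, fun m => (c1 m).symm⟩
  · rw [mem_singleton_iff] at hk
    subst hk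
    have := heq hN' ht
    subst this
    exact ⟨M0, key h0 hr mr hrt, fun m => (c2 m).symm⟩

end HubC

end Vale.Agent.P032.Six
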