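import Vale.Agent.P032.R2.H833.NetW
import Vale.Agent.P032.R2.H171.LF3

/-!
# P032, W4.NET: the world of full ends of `HubC U T`

`HubC.wld` : the full ends form a world; `HubC.false` : there is no two-pair point.
-/

open Set Filter Topology Metric

noncomputable section

namespace Vale.Agent.P032.Six

variable {U : Fin 6 → Set ℂ} {T : ℂ → Set (Fin 6)} {z v q : ℂ}

theorem cis_eq_one833 {x : ℝ} (h : cis x = 1) : ∃ n : ℤ, x = n * (2 * Real.pi) := by
  unfold cis at h
  obtain ⟨n, hn⟩ := Complex.exp_eq_one_iff.1 h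
  refine ⟨n, ?_⟩
  have h2 := congrArg Complex.im hn
  simpa using h2

theorem cis_int833 (x : ℝ) (n : ℤ) : cis (x + n * (2 * Real.pi)) = cis x := by
  unfold cis
  have h1 := Complex.exp_int_mul_two_pi_mul_I n
  have e : ((x + n * (2 * Real.pi) : ℝ) : ℂ) * Complex.I =
      x * Complex.I + n * (2 * Real.pi * Complex.I) := by
    push_cast; ring
  rw [e, Complex.exp_add, h1, mul_one]

/-- the two ends of a leg are different -/
theorem Leg.ne {E : Set ℂ} {M : ℂ} {i j k : Fin 6} {o ℓ : ℝ} (hM : HbL T v M i j k)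
    (L : Leg T E v M i j o ℓ) : M + (v - M) * cis (o * ℓ) ≠ v := by
  intro hcon
  obtain ⟨c, d, hd⟩ := hM.dp
  have hn : ‖v - M‖ = 1 := by rw [← dist_eq_norm]; exact hM.dst
  have hne : v - M ≠ 0 := by
    intro h0; rw [h0, norm_zero] at hn; exact zero_ne_one hn
  have h1 : cis (o * ℓ) = 1 := by
    have : (v - M) * cis (o * ℓ) = (v - M) * 1 := by linear_combination hcon
    exact mul_left_cancel₀ hne this
  obtain ⟨n, hn1⟩ := cis_eq_one833 h1
  have hpi := Real.pi_pos
  have hℓ : 2 * Real.pi ≤ ℓ := by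
    have hpos := L.pos
    have hn0 : n ≠ 0 := by
      rintro rfl
      rcases L.o1 with ho | ho <;> rw [ho] at hn1 <;> simp at hn1 <;> linarith
    have habs : ℓ = |(n : ℝ)| * (2 * Real.pi) := by
      have h2 : |o * ℓ| = ℓ := by
        rw [abs_mul, abs_of_pos hpos]
        rcases L.o1 with ho | ho <;> rw [ho] <;> simp
      rw [← h2, hn1, abs_mul, abs_of_pos (by positivity : (0 : ℝ) < 2 * Real.pi)]
    have h3 : (1 : ℝ) ≤ |(n : ℝ)| := by
      have : (1 : ℤ) ≤ |n| := Int.one_le_abs hn0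
      exact_mod_cast this
    rw [habs]
    nlinarith
  obtain ⟨p, hp⟩ := hd.arc2
  have hTp := hp.mem
  obtain ⟨θ, hθ⟩ := exists_cis (u := (p - M) / (v - M)) (by
    rw [norm_div, hn, div_one, ← dist_eq_norm]; exact hp.1)
  have hp' : p = M + (v - M) * cis θ := by
    rw [← hθ, mul_div_cancel₀ _ hne]; ring
  have ho2 : o * o = 1 := by rcases L.o1 with ho | ho <;> rw [ho] <;> norm_num
  set t := toIocMod Real.two_pi_pos 0 (o * θ) with ht
  have htm := toIocMod_mem_Ioc Real.two_pi_pos 0 (o * θ)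
  rw [← ht, zero_add] at htm
  have hmod : t = o * θ - (toIocDiv Real.two_pi_pos 0 (o * θ)) • (2 * Real.pi) := rfl
  have hcis : cis (o * t) = cis θ := by
    have ho3 : ∃ m : ℤ, o * t = θ + m * (2 * Real.pi) := by
      rcases L.o1 with ho | ho
      · refine ⟨-(toIocDiv Real.two_pi_pos 0 (o * θ)), ?_⟩
        rw [hmod, zsmul_eq_mul, ho]
        push_cast; ring
      · refine ⟨toIocDiv Real.two_pi_pos 0 (o * θ), ?_⟩
        rw [hmod, zsmul_eq_mul, ho]
        ring
    obtain ⟨m, hm⟩ := ho3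
    rw [hm, cis_int833]
  have hiv := hM.iv
  have hic : i ∉ ({c, d} : Set (Fin 6)) := by
    rintro (h5 | h5)
    · exact hd.ac h5
    · exact hd.ad (by simpa using h5)
  rcases eq_or_lt_of_le htm.2 with h5 | h5
  · -- `p = v`
    have h6 : cis (o * t) = 1 := by
      rw [h5]
      rcases L.o1 with ho | ho
      · have := cis_int833 0 1
        rw [ho]; simpa [cis_zero] using this
      · have := cis_int833 0 (-1)
        rw [ho]; simpa [cis_zero] using this
    rw [hcis] at h6
    rw [h6, mul_one, add_sub_cancel] at hp'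
    rw [hp'] at hTp
    rw [hTp] at hiv
    exact hic hiv
  · have h6 := L.arc t htm.1 (h5.trans_le hℓ)
    rw [hcis, ← hp', hTp] at h6
    exact hic (by rw [h6]; simp)

namespace HubC

/-- **the legs** -/
theorem leg (H : HubC U T) {M : ℂ} {i j k : Fin 6} (hv : EE T M v) (hM : HbL T v M i j k) :
    ∃ o ℓ, Leg T (FEnd T) v M i j o ℓ := by
  have h := H.irr
  obtain ⟨c, d, hd⟩ := hM.dp
  have hTMv : T M ∩ T v = {i, j} := by
    ext m
    constructor
    · rintro ⟨h1, h2⟩
      rw [hM.pal] at h2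
      rcases h2 with h2 | h2 | h2
      · exact Or.inl h2
      · exact Or.inr h2
      · rw [mem_singleton_iff] at h2; subst h2; exact absurd h1 hM.out
    · rintro (rfl | h2)
      · exact ⟨hM.i_mem, hM.iv⟩
      · rw [mem_singleton_iff] at h2; subst h2; exact ⟨hM.j_mem, hM.jv⟩
  obtain ⟨⟨o, ho, hdist, h4M, h3v, h2, ε, hε, harc⟩, -⟩ := hv
  rw [hTMv] at harc h2
  have hijM : ({i, j} : Set (Fin 6)) ⊆ T M := by rw [← hTMv]; exact inter_subset_left
  have hTp := harc (ε / 2) ⟨by linarith, by linarith⟩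
  set p := M + (v - M) * cis (-(o * (ε / 2))) with hp
  have hpM : dist p M = 1 := dist_rot hdist _
  obtain ⟨l, hl0, -, hlt, hss, hA⟩ := h.arc_side ho h2 hijM hpM hTp
  have hrot : ∀ t : ℝ, M + (p - M) * cis (-(o * t)) = M + (v - M) * cis (-o * (ε / 2 + t)) := by
    intro t
    rw [hp, add_sub_cancel_left, mul_assoc, ← cis_add394]
    congr 3
    ring
  have hall : ∀ t, 0 < t → t < ε / 2 + l → T (M + (v - M) * cis (-o * t)) = {i, j} := by
    intro t h5 h6
    by_cases h7 : t < ε
    · have := harc t ⟨h5, h7⟩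
      rw [← neg_mul] at this
      exact this
    · have := hlt (t - ε / 2) ⟨by linarith, by linarith⟩
      rw [hrot, show ε / 2 + (t - ε / 2) = t by ring] at this
      exact this
  rw [hrot] at hss hA
  set v' := M + (v - M) * cis (-o * (ε / 2 + l)) with hv'
  obtain ⟨e, heM, hTv'⟩ := H.stop hd hA hss
  have hei : e ≠ i := by rintro rfl; exact heM hM.i_mem
  have hej : e ≠ j := by rintro rfl; exact heM hM.j_mem
  have hTMv' : T M ∩ T v' = {i, j} := by
    rw [hTv']
    ext m
    constructor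
    · rintro ⟨h5, h6 | h6 | h6⟩
      · exact Or.inl h6
      · exact Or.inr h6
      · rw [mem_singleton_iff] at h6; subst h6; exact absurd h5 heM
    · rintro (rfl | h6)
      · exact ⟨hM.i_mem, by simp⟩
      · rw [mem_singleton_iff] at h6; subst h6; exact ⟨hM.j_mem, by simp⟩
  have hsd : T M \ T v' = {c, d} := by
    rw [hd.pal, hTv']
    ext m
    simp only [Set.mem_sdiff, mem_insert_iff, mem_singleton_iff, not_or]
    constructor
    · rintro ⟨h5 | h5 | h5 | h5, h6, h7, h8⟩
      · exact absurd h5 h6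
      · exact absurd h5 h7
      · exact Or.inl h5
      · exact Or.inr h5
    · rintro (rfl | rfl)
      · exact ⟨by simp, hd.ac.symm, hd.bc.symm, by rintro rfl; exact heM (by rw [hd.pal]; simp)⟩
      · exact ⟨by simp, hd.ad.symm, hd.bd.symm, by rintro rfl; exact heM (by rw [hd.pal]; simp)⟩
  have hE : EE T M v' := by
    refine ⟨⟨-o, ?_, dist_rot hdist _, h4M, ?_, by rw [hTMv']; exact h2, ε / 2 + l, by linarith,
      fun t ht => ?_⟩, ?_⟩
    · rcases ho with rfl | rfl
      · exact Or.inr rfl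
      · left; norm_num
    · rw [hTv', Set.ncard_eq_three.2 ⟨i, j, e, hM.ij, hei.symm, hej.symm, rfl⟩]
    · rw [hTMv', hv', add_sub_cancel_left, mul_assoc, ← cis_add394,
        show -o * (ε / 2 + l) + -(-o * t) = -o * (ε / 2 + l - t) by ring]
      exact hall _ (by linarith [ht.2]) (by linarith [ht.1])
    · obtain ⟨p2, hp2⟩ := hd.arc2
      exact ⟨p2, by rw [hsd]; exact hp2⟩
  refine ⟨-o, ε / 2 + l, ?_, by linarith, hall, ⟨M, hE⟩⟩
  rcases ho with rfl | rfl
  · exact Or.inr rfl
  · left; norm_num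

theorem shift (H : HubC U T) {M : ℂ} {i j k : Fin 6} {o ℓ : ℝ} (hv : EE T M v)
    (hM : HbL T v M i j k) (L : Leg T (FEnd T) v M i j o ℓ)
    (hT : T (M + (v - M) * cis (o * ℓ)) = T v) :
    ∃ w w', w' - w = M + (v - M) * cis (o * ℓ) - v ∧ dist w v ≤ 2 ∧ 5 ≤ (T w ∪ T w').ncard := by
  have h := H.irr
  have h4 := H.le4
  have hne := L.ne hM
  obtain ⟨z0, hz0⟩ := L.fin
  set v' := M + (v - M) * cis (o * ℓ) with hv'
  have hd' : dist v' M = 1 := dist_rot hM.dst _
  have hM' : HbL T v' M i j k := ⟨by rw [hT, hM.pal], hM.out, hd', hM.dp⟩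
  have hE' : EE T M v' := H.hb_ee h h4 hz0 hM'
  obtain ⟨q, hq, cq⟩ := H.compl_end h hv
  have cq' : T q = (T v')ᶜ := by rw [hT, cq]
  have w1 := hv.rh' h h4 hq cq
  have w2 := hE'.rh' h h4 hq cq'
  refine ⟨v + q - M, v' + q - M, by ring, ?_, ?_⟩
  · rw [dist_eq_norm, show v + q - M - v = q - M by ring, ← dist_eq_norm, hq.dist]
    norm_num
  · have hTne : T (v + q - M) ≠ T (v' + q - M) := by
      intro h5
      have := H.uniq h w1 w2 (by rw [h5])
      exact hne (by linear_combination -this)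
    have hss : T (v + q - M) ⊂ T (v + q - M) ∪ T (v' + q - M) := by
      refine ssubset_of_subset_of_ne subset_union_left fun h5 => hTne ?_
      have hsub : T (v' + q - M) ⊆ T (v + q - M) := by rw [h5]; exact subset_union_right
      exact (Set.eq_of_subset_of_ncard_le hsub (by rw [w1.card_z, w2.card_z])
        (Set.toFinite _)).symm
    have := Set.ncard_lt_ncard hss (Set.toFinite _)
    rw [w1.card_z] at this
    omega

/-- **the full ends form a world** -/
theorem wld (H : HubC U T) : Wld T (FEnd T) where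
  card := by
    rintro v ⟨z, hz⟩
    exact hz.card_v
  hub := by
    rintro v ⟨z, hz⟩ i j k hT
    obtain ⟨M, -, hM⟩ := H.hub H.irr H.le4 hz hT
    exact ⟨M, hM⟩
  leg := by
    rintro v ⟨z, hz⟩ M i j k hM
    exact H.leg (H.hb_ee H.irr H.le4 hz hM) hM
  rhomb := by
    rintro v ⟨z, hz⟩ M i j k hM
    exact H.rhomb H.irr H.le4 hz hM
  shift := by
    rintro v ⟨z, hz⟩ M i j k o ℓ hM L hT
    exact H.shift (H.hb_ee H.irr H.le4 hz hM) hM L hT

/-- **no two-pair point** -/
theorem false (H : HubC U T) {z : ℂ} {a b c d : Fin 6} (hz : DPt T z a b c d) : False := by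
  have hc : ((T z)ᶜ).ncard = 2 := by
    have h1 := Set.ncard_add_ncard_compl (T z)
    rw [Nat.card_eq_fintype_card, Fintype.card_fin, hz.card] at h1
    omega
  obtain ⟨e, he⟩ : ((T z)ᶜ).Nonempty := Set.nonempty_of_ncard_ne_zero (by rw [hc]; norm_num)
  obtain ⟨v, hv, -⟩ := H.full hz he
  exact Wld.m4_of_lf H.irr H.wld ⟨v, z, hv⟩ fun p => H.wld.lf H.irr H.le4 p

end HubC

/-- no two-pair point in the frame `HubW` -/
theorem HubW.false (H : HubW U T) {z : ℂ} {a b c d : Fin 6} (hz : DPt T z a b c d) : False :=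
  H.toC.false hz

end Vale.Agent.P032.Six
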