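import Vale.Agent.P032.R2.H833.S3C

/-!
# P032: TWO in the world with contacts of type S3 only

`S3W.two`: no class of a two-pair point has exactly one end of each kind.
-/

open Set Filter Topology Metric

noncomputable section

namespace Vale.Agent.P032.Six

open S5.H767 (Ex ex_self dist_of_closure sub_of_closure line_free pt Xs Lt Flip4)
open Words (rk1 rk2 Jmp Swp)

variable {U : Fin 6 → Set ℂ} {T : ℂ → Set (Fin 6)} {z v q y p : ℂ} {a b c d e f : Fin 6}

/-- the angle of a point of the circle -/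
theorem exists_pt (hv : dist v z = 1) : ∃ s : ℝ, v = pt z s := by
  obtain ⟨θ, hθ⟩ := exists_cis (u := v - z) (by rw [← dist_eq_norm]; exact hv)
  refine ⟨θ * (3 / Real.pi), ?_⟩
  have hpi := Real.pi_pos
  unfold pt
  rw [show θ * (3 / Real.pi) * (Real.pi / 3) = θ by field_simp, ← hθ]
  ring

theorem pt_eq_int {s t : ℝ} (h : pt z s = pt z t) : ∃ n : ℤ, s = t + 6 * n := by
  have hpi := Real.pi_pos
  unfold pt at h
  have h1 : cis (s * (Real.pi / 3)) = cis (t * (Real.pi / 3)) := by linear_combination h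
  have h2 : cis ((s - t) * (Real.pi / 3)) = 1 := by
    have e : (s - t) * (Real.pi / 3) = s * (Real.pi / 3) + -(t * (Real.pi / 3)) := by ring
    rw [e, cis_add394, h1, ← cis_add394, add_neg_cancel, cis_zero394]
  unfold cis at h2
  obtain ⟨n, hn⟩ := Complex.exp_eq_one_iff.1 h2
  refine ⟨n, ?_⟩
  have h3 := congrArg Complex.im hn
  have h4 : (s - t) * (Real.pi / 3) = n * (2 * Real.pi) := by simpa using h3
  have h5 : s - t = 6 * n := by
    have : (s - t) * Real.pi = 6 * n * Real.pi := by linarith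
    exact mul_right_cancel₀ hpi.ne' this
  linarith

theorem pt_add_six (z : ℂ) (s : ℝ) (n : ℤ) : pt z (s + 6 * n) = pt z s := by
  unfold pt
  have h1 := Complex.exp_int_mul_two_pi_mul_I n
  have e : (s + 6 * n) * (Real.pi / 3) = s * (Real.pi / 3) + n * (2 * Real.pi) := by ring
  rw [e, cis_add394]
  have : cis (n * (2 * Real.pi)) = 1 := by
    unfold cis
    rw [← h1]; congr 1; push_cast; ring
  rw [this, mul_one]

/-- an arc of more than 180 degrees between two points which are not antipodal -/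
theorem exists_long (hv : dist v z = 1) (hq : dist q z = 1) (hne : v ≠ q)
    (hanti : v + q ≠ 2 * z) : ∃ x y : ℝ, x + 3 < y ∧ ∀ u ∈ Ioo x y, pt z u ≠ v ∧ pt z u ≠ q := by
  obtain ⟨s, rfl⟩ := exists_pt hv
  obtain ⟨r0, rfl⟩ := exists_pt hq
  -- `r ∈ (s, s + 6)`
  obtain ⟨r, hr1, hr2, hr3⟩ : ∃ r, s < r ∧ r < s + 6 ∧ pt z r0 = pt z r := by
    have hn := Int.floor_le ((r0 - s) / 6)
    have hn' := Int.lt_floor_add_one ((r0 - s) / 6)
    set n := ⌊(r0 - s) / 6⌋ with hndef
    have h1 : (n : ℝ) * 6 ≤ r0 - s := by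
      have := (le_div_iff₀ (by norm_num : (0 : ℝ) < 6)).1 hn
      exact this
    have h2 : r0 - s < (n + 1) * 6 := by
      have := (div_lt_iff₀ (by norm_num : (0 : ℝ) < 6)).1 hn'
      exact this
    have e1 : pt z r0 = pt z (r0 - 6 * n) := by
      have := pt_add_six z (r0 - 6 * n) n
      rw [sub_add_cancel] at this
      exact this
    refine ⟨r0 - 6 * n, ?_, by linarith, e1⟩
    rcases lt_or_eq_of_le (show s ≤ r0 - 6 * n by linarith) with h3 | h3
    · exact h3
    · exfalso
      rw [e1, ← h3] at hne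
      exact hne rfl
  rw [hr3] at hne hanti ⊢
  have hr4 : r ≠ s + 3 := by
    rintro rfl
    rw [S5.H767.pt_three] at hanti
    exact hanti (by ring)
  have key : ∀ {x y : ℝ}, x < y → y < x + 6 → ∀ u ∈ Ioo x y, pt z u ≠ pt z x ∧ pt z u ≠ pt z y := by
    intro x y hxy hxy6 u hu
    constructor
    · intro h1
      obtain ⟨n, hn⟩ := pt_eq_int h1
      have h2 : (0 : ℝ) < n := by linarith [hu.1]
      have h3 : (n : ℝ) < 1 := by linarith [hu.2]
      have h4 : 0 < n := by exact_mod_cast h2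
      have h5 : n < 1 := by exact_mod_cast h3
      omega
    · intro h1
      obtain ⟨n, hn⟩ := pt_eq_int h1
      have h2 : (n : ℝ) < 0 := by linarith [hu.2]
      have h3 : (-1 : ℝ) < n := by linarith [hu.1]
      have h4 : n < 0 := by exact_mod_cast h2
      have h5 : -1 < n := by exact_mod_cast h3
      omega
  rcases lt_or_gt_of_ne hr4 with h1 | h1
  · refine ⟨r, s + 6, by linarith, fun u hu => ?_⟩
    have := key hr2 (by linarith) u hu
    rw [S5.H767.pt_six] at this
    exact ⟨this.2, this.1⟩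
  · exact ⟨s, r, by linarith, key hr1 hr2⟩

/-- a flip point of class one with the letters `e, f` only: a neighbour has both `e` and `f` -/
theorem flip_nb {u : ℝ} (hX : ∀ l, u ∈ Xs T z a b c d e f l → l = 0 ∨ l = 1)
    (hF : Jmp rk1 (Xs T z a b c d e f) u ∨ Swp rk1 (Xs T z a b c d e f) u ∨
      Swp rk1 (Xs T z a b c d e f) (u - 1)) :
    ∃ p, dist p z = 1 ∧ dist p (pt z u) = 1 ∧ e ∈ T p ∧ f ∈ T p := by
  have hJ : ∀ l m : Fin 4, (l = 0 ∨ l = 1) → (m = 0 ∨ m = 1) → ¬ rk1 l + 2 ≤ rk1 m := by decide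
  have hS : ∀ l m : Fin 4, (l = 0 ∨ l = 1) → (m = 0 ∨ m = 1) → rk1 m = rk1 l + 1 →
      l = 1 ∧ m = 0 := by decide
  rcases hF with ⟨l, m, hlm, h1, h2⟩ | ⟨l, m, hlm, h1, h2, h3, h4⟩ | ⟨l, m, hlm, h1, h2, h3, h4⟩
  · exact absurd hlm (hJ l m (hX l h1) (hX m h2))
  · obtain ⟨rfl, rfl⟩ := hS l m (hX l h1) (hX m h2) hlm
    refine ⟨pt z (u + 1), S5.H767.dist_pt z _, ?_, h4.2, h3.2⟩
    rw [dist_comm]
    exact S5.H767.dist_pt_one z u
  · rw [sub_add_cancel] at h3 h4
    obtain ⟨rfl, rfl⟩ := hS l m (hX l h3) (hX m h4) hlm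
    refine ⟨pt z (u - 1), S5.H767.dist_pt z _, ?_, h2.2, h1.2⟩
    have := S5.H767.dist_pt_one z (u - 1)
    rwa [sub_add_cancel] at this

namespace Lock

/-- two far exact `ab`-arcs at a swapped lock -/
theorem two_arcs (L : Lock T z y a b c d e f) (H : S3W U T) (hz : dist p z = 1)
    (hy : dist p y = 1) (he : e ∈ T p) (hf : f ∈ T p) :
    ∃ m₁ m₂, Arc T z m₁ {a, b} ∧ Arc T z m₂ {a, b} ∧ Real.pi / 3 ≤ dist m₁ m₂ := by
  obtain ⟨-, h1, h2⟩ := L.swapped H hz hy he hf
  -- the two limits are at distance `√3`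
  have hd : 3 ≤ dist (z + p - y) (2 * z - p) ^ 2 := by
    have e1 : z + p - y - (2 * z - p) = (p - z) + (p - y) := by ring
    rw [dist_eq_norm, e1]
    have n1 : ‖p - z‖ = 1 := by rw [← dist_eq_norm]; exact hz
    have n2 : ‖p - y‖ = 1 := by rw [← dist_eq_norm]; exact hy
    have n3 : ‖y - z‖ = 1 := by rw [← dist_eq_norm]; exact L.d1
    have hp := parallelogram_law_with_norm ℝ (p - z) (p - y)
    have e2 : p - z - (p - y) = y - z := by ring
    rw [e2, n1, n2, n3] at hp
    nlinarith
  have hlt : Real.pi / 3 < dist (z + p - y) (2 * z - p) := by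
    have h3 : Real.pi < 3.15 := Real.pi_lt_d2
    have h4 := dist_nonneg (x := z + p - y) (y := 2 * z - p)
    nlinarith
  have hopen : ∀ᶠ m : ℂ × ℂ in 𝓝 (z + p - y, 2 * z - p), Real.pi / 3 < dist m.1 m.2 :=
    (continuous_fst.dist continuous_snd).continuousAt.eventually (Ioi_mem_nhds hlt)
  rw [nhds_prod_eq, Filter.eventually_prod_iff] at hopen
  obtain ⟨P1, hP1, P2, hP2, hP⟩ := hopen
  obtain ⟨m1, k1, k2⟩ := mem_closure_iff_nhds.1 h1 _ hP1
  obtain ⟨m2, k3, k4⟩ := mem_closure_iff_nhds.1 h2 _ hP2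
  exact ⟨m1, m2, ⟨k2.1, k2.2⟩, ⟨k4.1, k4.2⟩, (hP k1 k3).le⟩

end Lock

namespace S3W

/-- **TWO** in the world with contacts of type S3 only -/
theorem two (H : S3W U T) (hv : EE T z v) (hq : EE T z q) (hc : T q = (T v)ᶜ) :
    (∃ v', v' ≠ v ∧ EE T z v' ∧ T v' = T v) ∨ ∃ q', q' ≠ q ∧ EE T z q' ∧ T q' = T q := by
  by_contra hcon
  push Not at hcon
  obtain ⟨uv0, uq0⟩ := hcon
  have uv : ∀ v', EE T z v' → T v' = T v → v' = v := by
    intro v' h1 h2
    by_contra h3
    exact uv0 v' h3 h1 h2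
  have uq : ∀ q', EE T z q' → T q' = T q → q' = q := by
    intro q' h1 h2
    by_contra h3
    exact uq0 q' h3 h1 h2
  have h := H.irr
  have hcv : T v = (T q)ᶜ := by rw [hc, compl_compl]
  obtain ⟨a, b, c, d, e, f, C, -, -⟩ := exists_cfg h hv hv.dist rfl hq.dist hc
  have hz := C.dp
  have he : e ∉ T z := C.he
  have hf : f ∉ T z := C.hf
  have hTv : T v = {a, b, e} := C.TV
  have hTq : T q = {c, d, f} := C.TQ
  have hef : e ≠ f := C.ef
  have hea : e ≠ a := fun h5 => he (by rw [hz.pal, h5]; simp)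
  have heb : e ≠ b := fun h5 => he (by rw [hz.pal, h5]; simp)
  have hec : e ≠ c := fun h5 => he (by rw [hz.pal, h5]; simp)
  have hed : e ≠ d := fun h5 => he (by rw [hz.pal, h5]; simp)
  have hfa : f ≠ a := fun h5 => hf (by rw [hz.pal, h5]; simp)
  have hfb : f ≠ b := fun h5 => hf (by rw [hz.pal, h5]; simp)
  have hfc : f ≠ c := fun h5 => hf (by rw [hz.pal, h5]; simp)
  have hfd : f ≠ d := fun h5 => hf (by rw [hz.pal, h5]; simp)
  have nd : [a, b, c, d, e, f].Nodup := by
    simp [hz.ab, hz.ac, hz.ad, hz.bc, hz.bd, hz.cd, hea.symm, heb.symm, hec.symm, hed.symm,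
      hfa.symm, hfb.symm, hfc.symm, hfd.symm, hef]
  have nd2 : [c, d, a, b, e, f].Nodup := by
    simp [hz.ab, hz.ac.symm, hz.ad.symm, hz.bc.symm, hz.bd.symm, hz.cd, hea.symm, heb.symm,
      hec.symm, hed.symm, hfa.symm, hfb.symm, hfc.symm, hfd.symm, hef]
  have Ct := S5.H767.ctr_of_dpt h hz nd
  have hall : ∀ g, g ∉ T z → g = e ∨ g = f := fun g hg => Ct.miss hg
  have hvq : v ≠ q := by
    rintro rfl
    have h5 : e ∈ T v := by rw [hTv]; simp
    have h6 := h5
    rw [hc] at h6
    exact h6 h5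
  obtain ⟨x, y, hxy, hxyu⟩ := exists_long hv.dist hq.dist hvq (hv.anti h hq hc)
  obtain ⟨u, hu, hcase⟩ := S5.H767.Irr.conv_flip h hz nd hxy
  obtain ⟨hnv, hnq⟩ := hxyu u hu
  rcases hcase with ⟨h1, -⟩ | ⟨h1, -⟩ | ⟨h4, hF⟩
  · exact hnv (uv _ (h.ee_of_full H.le4 hz (S5.H767.dist_pt z u) hq.dist h1 hTq he hf hef)
      (by rw [h1, hTv]))
  · refine hnq (uq _ (h.ee_of_full H.le4 hz.swap (S5.H767.dist_pt z u) hv.dist h1 hTv hf he
      hef.symm) (by rw [h1, hTq]))
  · -- the contact
    have hc4 : (T (pt z u)).ncard = 4 := by have := H.le4 (pt z u); omega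
    have hYz := S5.H767.dist_pt z u
    -- colours outside `T z`
    have hefY : ∀ {i j : Fin 6}, i ∈ T z → j ∈ T z → T (pt z u) ∩ T z = {i, j} →
        (∃ m n, DPt T (pt z u) i j m n) → e ∈ T (pt z u) ∧ f ∈ T (pt z u) := by
      rintro i j hi hj hint ⟨m, n, hD⟩
      have hm : m ∉ T z := by
        intro h5
        have h6 : m ∈ T (pt z u) ∩ T z := ⟨by rw [hD.pal]; simp, h5⟩
        rw [hint] at h6
        rcases h6 with h6 | h6
        · exact hD.ac h6.symm
        · exact hD.bc (by simpa using h6.symm)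
      have hn : n ∉ T z := by
        intro h5
        have h6 : n ∈ T (pt z u) ∩ T z := ⟨by rw [hD.pal]; simp, h5⟩
        rw [hint] at h6
        rcases h6 with h6 | h6
        · exact hD.ad h6.symm
        · exact hD.bd (by simpa using h6.symm)
      have hmT : m ∈ T (pt z u) := by rw [hD.pal]; simp
      have hnT : n ∈ T (pt z u) := by rw [hD.pal]; simp
      rcases hall m hm with rfl | rfl <;> rcases hall n hn with rfl | rfl
      · exact absurd rfl hD.cd
      · exact ⟨hmT, hnT⟩
      · exact ⟨hnT, hmT⟩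
      · exact absurd rfl hD.cd
    have haz : a ∈ T z := by rw [hz.pal]; simp
    have hbz : b ∈ T z := by rw [hz.pal]; simp
    have hcz : c ∈ T z := by rw [hz.pal]; simp
    have hdz : d ∈ T z := by rw [hz.pal]; simp
    rcases H.tie hz hYz hc4 with ⟨hint, hD⟩ | ⟨hint, hD⟩
    · obtain ⟨heY, hfY⟩ := hefY haz hbz hint hD
      have haY : a ∈ T (pt z u) := by
        have : a ∈ T (pt z u) ∩ T z := by rw [hint]; simp
        exact this.1
      have hbY : b ∈ T (pt z u) := by
        have : b ∈ T (pt z u) ∩ T z := by rw [hint]; simp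
        exact this.1
      have L : Lock T z (pt z u) a b c d e f := H.lock hz hYz nd haY hbY heY hfY
      have hX : ∀ l, u ∈ Xs T z a b c d e f l → l = 0 ∨ l = 1 := by
        intro l hl
        fin_cases l
        · exact Or.inl rfl
        · exact Or.inr rfl
        · exfalso
          have h5 : pt z u ∈ closure (Ex T z {a, b}) := hl
          have h6 : ({a, b} : Set (Fin 6)) ⊂ T (pt z u) :=
            ⟨sub_of_closure h h5, fun h7 => by
              have := h7 heY
              rcases this with h8 | h8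
              · exact hea h8
              · exact heb h8⟩
          have := H.end3 hz (acc_of_closure h5) h6
          omega
        · exfalso
          have h5 : pt z u ∈ closure (Ex T z {c, d}) := hl
          have h6 : c ∈ T (pt z u) ∩ T z := ⟨sub_of_closure h h5 (by simp), hcz⟩
          rw [hint] at h6
          rcases h6 with h6 | h6
          · exact hz.ac h6.symm
          · exact hz.bc h6.symm
      obtain ⟨p, hpz, hpy, hep, hfp⟩ := flip_nb hX hF
      obtain ⟨m₁, m₂, k1, k2, k3⟩ := L.two_arcs H hpz hpy hep hfp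
      exact H.core hz he hf hall hv hTv hq hTq hc uv uq k1 k2 k3
    · obtain ⟨heY, hfY⟩ := hefY hcz hdz hint hD
      have hcY : c ∈ T (pt z u) := by
        have : c ∈ T (pt z u) ∩ T z := by rw [hint]; simp
        exact this.1
      have hdY : d ∈ T (pt z u) := by
        have : d ∈ T (pt z u) ∩ T z := by rw [hint]; simp
        exact this.1
      have L : Lock T z (pt z u) c d a b e f := H.lock hz.swap hYz nd2 hcY hdY heY hfY
      have hX : ∀ l, u ∈ Xs T z a b c d e f l → l = 0 ∨ l = 1 := by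
        intro l hl
        fin_cases l
        · exact Or.inl rfl
        · exact Or.inr rfl
        · exfalso
          have h5 : pt z u ∈ closure (Ex T z {a, b}) := hl
          have h6 : a ∈ T (pt z u) ∩ T z := ⟨sub_of_closure h h5 (by simp), haz⟩
          rw [hint] at h6
          rcases h6 with h6 | h6
          · exact hz.ac h6
          · exact hz.ad h6
        · exfalso
          have h5 : pt z u ∈ closure (Ex T z {c, d}) := hl
          have h6 : ({c, d} : Set (Fin 6)) ⊂ T (pt z u) :=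
            ⟨sub_of_closure h h5, fun h7 => by
              have := h7 heY
              rcases this with h8 | h8
              · exact hec h8
              · exact hed h8⟩
          have := H.end3 hz.swap (acc_of_closure h5) h6
          omega
      obtain ⟨p, hpz, hpy, hep, hfp⟩ := flip_nb hX hF
      obtain ⟨m₁, m₂, k1, k2, k3⟩ := L.two_arcs H hpz hpy hep hfp
      exact H.core (e := f) (f := e) hz.swap hf he (fun g hg => (hall g hg).symm) hq hTq hv hTv
        hcv uq uv k1 k2 k3

end S3W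

end Vale.Agent.P032.Six
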