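import Vale.Agent.P032.R2.H833.Rule2Top
import Vale.Agent.P032.S5.H80.Ends
import Vale.Agent.P032.S5.H394.Ends

/-!
# P032: visible ends without any bound on orders

`Cfg.cend_top`: if `z = {ab|cd}` and the circle of `z` has a point `V` with the palette `{a, b, e}` and
a point `Q` with the palette `{c, d, f}`, then `V` is a clean end of an exact `ab`-arc: on one side of
`V` all palettes are `{a, b}`, on the other side all palettes contain `e` and not both `a` and `b`.
Nothing is assumed about the order of the corner `V + Q - z`.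
-/

set_option autoImplicit false

open Set Filter Topology Metric

noncomputable section

namespace Vale.Agent.P032.Six

variable {U : Fin 6 → Set ℂ} {T : ℂ → Set (Fin 6)} {z V Q : ℂ} {a b c d e f : Fin 6}

theorem Cfg.nodup833 (C : Cfg T z V Q a b c d e f) : [a, b, c, d, e, f].Nodup := by
  simp [C.dp.ab, C.dp.ac, C.dp.ad, C.ea.symm, C.fa.symm, C.dp.bc, C.dp.bd, C.eb.symm, C.fb.symm,
    C.dp.cd, C.ec.symm, C.fc.symm, C.ed.symm, C.fd.symm, C.ef]

/-- near `V` a point of the circle without `e` has the palette `{a, b}` -/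
theorem Cfg.key833 (C : Cfg T z V Q a b c d e f) (h : Irr U T) {x : ℂ} (hx : dist x z = 1)
    (hs : T x ⊆ {a, b, e}) (he : e ∉ T x) : T x = {a, b} := by
  have haz : a ∈ Pal U z := h.sub _ (by rw [C.dp.pal]; simp)
  have hbz : b ∈ Pal U z := h.sub _ (by rw [C.dp.pal]; simp)
  have h5 : T x ⊆ {a, b} := by
    intro i hi
    rcases hs hi with rfl | rfl | h6
    · simp
    · simp
    · rw [mem_singleton_iff] at h6; subst h6; exact absurd hi he
  refine Subset.antisymm h5 ?_
  have ha : a ∈ T x := by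
    by_contra ha
    refine h.mx.notMem hbz hx (h.mem_of_single fun i hi => ?_)
    rcases h5 hi with rfl | h7
    · exact absurd hi ha
    · exact h7
  have hb : b ∈ T x := by
    by_contra hb
    refine h.mx.notMem haz hx (h.mem_of_single fun i hi => ?_)
    rcases h5 hi with rfl | h7
    · rfl
    · rw [mem_singleton_iff] at h7; subst h7; exact absurd hi hb
  rintro i (rfl | hi)
  · exact ha
  · rw [mem_singleton_iff] at hi; subst hi; exact hb

/-- no other point with the palette `{a, b, e}` near `V` -/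
theorem Cfg.near833 (C : Cfg T z V Q a b c d e f) (h : Irr U T) :
    ∀ᶠ x in 𝓝 V, dist x z = 1 → T x ⊆ {a, b, e} ∧ (x ≠ V → T x ≠ {a, b, e}) := by
  obtain ⟨hfin, -⟩ := h.rule2_ncard_top C.dp C.nodup833 C.hQ C.TQ
  have h1 : ∀ᶠ x in 𝓝 V, x ∉ {x : ℂ | dist x z = 1 ∧ T x = {a, b, e}} \ {V} := by
    have h2 : IsClosed ({x : ℂ | dist x z = 1 ∧ T x = {a, b, e}} \ {V}) :=
      (hfin.subset sdiff_subset).isClosed
    exact h2.isOpen_compl.mem_nhds fun h3 => h3.2 rfl
  have h4 := h.nhd V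
  rw [C.TV] at h4
  filter_upwards [h1, h4] with x h2 h3 h5
  exact ⟨h3, fun h6 h7 => h2 ⟨⟨h5, h7⟩, h6⟩⟩

/-- one side of `V` -/
theorem Cfg.side833 (C : Cfg T z V Q a b c d e f) (h : Irr U T) {τ : ℝ} (hτ : τ = 1 ∨ τ = -1) :
    (∀ᶠ t : ℝ in 𝓝[>] 0, T (z + (V - z) * cis (τ * t)) = {a, b}) ∨
      (∀ᶠ t : ℝ in 𝓝[>] 0, e ∈ T (z + (V - z) * cis (τ * t)) ∧
        ¬ {a, b} ⊆ T (z + (V - z) * cis (τ * t))) := by
  have hc : Continuous fun t : ℝ => z + (V - z) * cis (τ * t) :=
    continuous_const.add (continuous_const.mul (continuous_cis.comp (by fun_prop)))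
  have hlim : Tendsto (fun t : ℝ => z + (V - z) * cis (τ * t)) (𝓝[>] 0) (𝓝 V) := by
    have h1 := hc.tendsto 0
    rw [mul_zero, cis_zero394, mul_one, add_sub_cancel] at h1
    exact h1.mono_left nhdsWithin_le_nhds
  have hV0 : V - z ≠ 0 := by
    intro h0
    have := C.hV
    rw [dist_eq_norm, h0, norm_zero] at this
    exact zero_ne_one this
  have hne : ∀ t : ℝ, 0 < t → t < 1 → z + (V - z) * cis (τ * t) ≠ V := by
    intro t h0 h1 h2
    have h3 : (V - z) * cis (τ * t) = (V - z) * 1 := by linear_combination h2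
    have h4 := mul_left_cancel₀ hV0 h3
    have him : (cis (τ * t)).im = Real.sin (τ * t) := cis_im _
    rw [h4, Complex.one_im] at him
    have hs : 0 < Real.sin t := Real.sin_pos_of_pos_of_lt_pi h0 (by linarith [Real.pi_gt_three])
    rcases hτ with rfl | rfl
    · rw [one_mul] at him; linarith
    · rw [neg_one_mul, Real.sin_neg] at him; linarith
  have h1 := hlim.eventually (C.near833 h)
  obtain ⟨ε, hε, hsub⟩ := mem_nhdsGT_iff_exists_Ioo_subset.1 (Filter.inter_mem h1
    (Ioo_mem_nhdsGT (one_pos : (0 : ℝ) < 1)))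
  have hd : ∀ t : ℝ, dist (z + (V - z) * cis (τ * t)) z = 1 := fun t => dist_arc C.hV _
  have fact : ∀ t ∈ Ioo 0 ε, T (z + (V - z) * cis (τ * t)) ⊆ {a, b, e} ∧
      T (z + (V - z) * cis (τ * t)) ≠ {a, b, e} := by
    intro t ht
    obtain ⟨h2, h3⟩ := hsub ht
    obtain ⟨h4, h5⟩ := h2 (hd t)
    exact ⟨h4, h5 (hne t h3.1 h3.2)⟩
  have hA : IsClosed {t : ℝ | e ∈ T (z + (V - z) * cis (τ * t))} := (h.closed e).preimage hc
  have hB : IsClosed {t : ℝ | a ∈ T (z + (V - z) * cis (τ * t)) ∧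
      b ∈ T (z + (V - z) * cis (τ * t))} :=
    ((h.closed a).preimage hc).inter ((h.closed b).preimage hc)
  have hcov : Ioo 0 ε ⊆ {t : ℝ | e ∈ T (z + (V - z) * cis (τ * t))} ∪
      {t : ℝ | a ∈ T (z + (V - z) * cis (τ * t)) ∧ b ∈ T (z + (V - z) * cis (τ * t))} := by
    intro t ht
    by_cases h2 : e ∈ T (z + (V - z) * cis (τ * t))
    · exact Or.inl h2
    · right
      have h3 := C.key833 h (hd t) (fact t ht).1 h2
      show a ∈ T (z + (V - z) * cis (τ * t)) ∧ b ∈ T (z + (V - z) * cis (τ * t))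
      rw [h3]; simp
  have hno : ¬ (Ioo 0 ε ∩ ({t : ℝ | e ∈ T (z + (V - z) * cis (τ * t))} ∩
      {t : ℝ | a ∈ T (z + (V - z) * cis (τ * t)) ∧
        b ∈ T (z + (V - z) * cis (τ * t))})).Nonempty := by
    rintro ⟨t, ht, h2, h3, h4⟩
    refine (fact t ht).2 (Subset.antisymm (fact t ht).1 ?_)
    rintro i (rfl | rfl | hi)
    · exact h3
    · exact h4
    · rw [mem_singleton_iff] at hi; subst hi; exact h2
  have hpre := isPreconnected_closed_iff.1 (isPreconnected_Ioo (a := (0 : ℝ)) (b := ε)) _ _ hA hB hcov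
  have hεn : Ioo 0 ε ∈ 𝓝[>] (0 : ℝ) := Ioo_mem_nhdsGT hε
  by_cases h2 : (Ioo 0 ε ∩ {t : ℝ | e ∈ T (z + (V - z) * cis (τ * t))}).Nonempty
  · right
    filter_upwards [hεn] with t ht
    have h3 : ¬ (a ∈ T (z + (V - z) * cis (τ * t)) ∧ b ∈ T (z + (V - z) * cis (τ * t))) :=
      fun h4 => hno (hpre h2 ⟨t, ht, h4⟩)
    refine ⟨?_, fun h4 => h3 ⟨h4 (by simp), h4 (by simp)⟩⟩
    rcases hcov ht with h5 | h5
    · exact h5
    · exact absurd h5 h3
  · left
    filter_upwards [hεn] with t ht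
    exact C.key833 h (hd t) (fact t ht).1 fun h3 => h2 ⟨t, ht, h3⟩

/-- **clean end**, no bound on orders -/
theorem Cfg.cend_top (C : Cfg T z V Q a b c d e f) (h : Irr U T) :
    ∃ o, CEnd T z V {a, b} e o := by
  have s1 := C.side833 h (τ := 1) (Or.inl rfl)
  have s2 := C.side833 h (τ := -1) (Or.inr rfl)
  -- both sides `{a, b}`
  have no1 : (∀ᶠ t : ℝ in 𝓝[>] 0, T (z + (V - z) * cis (1 * t)) = {a, b}) →
      (∀ᶠ t : ℝ in 𝓝[>] 0, T (z + (V - z) * cis (-1 * t)) = {a, b}) → False := by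
    intro g1 g2
    have main : ∀ i ∈ ({a, b} : Set (Fin 6)), i ∉ T (V + Q - z) := by
      intro i hi hiw
      have hiV : i ∈ T V := by
        rw [C.TV]
        rcases hi with rfl | hi
        · simp
        · rw [mem_singleton_iff] at hi; subst hi; simp
      have h1 : ∀ᶠ y in 𝓝[sphere z 1] V, i ∈ T y := by
        rw [eventually_circle C.hV]
        obtain ⟨ε1, hε1, k1⟩ := mem_nhdsGT_iff_exists_Ioo_subset.1 g1
        obtain ⟨ε2, hε2, k2⟩ := mem_nhdsGT_iff_exists_Ioo_subset.1 g2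
        have h0 : Ioo (-ε2) ε1 ∈ 𝓝 (0 : ℝ) := Ioo_mem_nhds (by
          have : (0 : ℝ) < ε2 := hε2
          linarith) hε1
        filter_upwards [h0] with t ht
        rcases lt_trichotomy t 0 with h2 | h2 | h2
        · have h3 : (-t) ∈ Ioo 0 ε2 := ⟨by linarith, by linarith [ht.1]⟩
          have h4 : T (z + (V - z) * cis (-1 * -t)) = {a, b} := k2 h3
          rw [show (-1 * -t : ℝ) = t by ring] at h4
          rw [h4]; exact hi
        · rw [h2, cis_zero394, mul_one, add_sub_cancel]; exact hiV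
        · have h4 : T (z + (V - z) * cis (1 * t)) = {a, b} := k1 ⟨h2, ht.2⟩
          rw [one_mul] at h4
          rw [h4]; exact hi
      rcases h.mx.partner_line (u := z) (p := V) (t := i) (v := V + Q - z) C.hV
        (h1.mono fun y hy => h.sub y hy) (by rw [dist_comm]; exact C.wV) (h.sub _ hiw) with h2 | h2
      · exact C.zw h h2.symm
      · exact C.VQ (by linear_combination -h2)
    obtain ⟨t, h1, h2, h3⟩ := C.two_V h e
    rw [C.TV] at h2
    rcases h2 with rfl | rfl | h2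
    · exact main _ (by simp) h1
    · exact main _ (by simp) h1
    · exact h3 h2
  -- both sides `e`
  have no2 : (∀ᶠ t : ℝ in 𝓝[>] 0, e ∈ T (z + (V - z) * cis (1 * t)) ∧
        ¬ {a, b} ⊆ T (z + (V - z) * cis (1 * t))) →
      (∀ᶠ t : ℝ in 𝓝[>] 0, e ∈ T (z + (V - z) * cis (-1 * t)) ∧
        ¬ {a, b} ⊆ T (z + (V - z) * cis (-1 * t))) → False := by
    intro g1 g2
    have hP : T z ∩ T V = {a, b} := by
      rw [C.dp.pal, C.TV]
      ext i
      simp only [mem_inter_iff, mem_insert_iff, mem_singleton_iff]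
      constructor
      · rintro ⟨h1, h2⟩
        rcases h2 with rfl | rfl | rfl
        · exact Or.inl rfl
        · exact Or.inr rfl
        · rcases h1 with h1 | h1 | h1 | h1
          exacts [Or.inl h1, Or.inr h1, absurd h1 C.ec, absurd h1 C.ed]
      · rintro (rfl | rfl)
        · exact ⟨Or.inl rfl, Or.inl rfl⟩
        · exact ⟨Or.inr (Or.inl rfl), Or.inr (Or.inl rfl)⟩
    have hTu : T V = insert e {a, b} := by
      rw [C.TV]; ext i; simp only [mem_insert_iff, mem_singleton_iff]; tauto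
    have heP : e ∉ ({a, b} : Set (Fin 6)) := by simp [C.ea, C.eb]
    have hacc : Acc T z {a, b} V := by
      refine h.rh_arc (u := V) (u' := Q) (q := z) (r := e) C.cQ ?_ C.VQ ?_ ?_ (C.anti h) hTu heP
        (Set.ncard_pair C.dp.ab).le ⟨a, by simp⟩ hP
      · intro i
        rw [C.TV, C.TQ]
        rcases C.cover i with rfl | rfl | rfl | rfl | rfl | rfl <;> simp
      · rw [dist_comm]; exact C.hV
      · rw [dist_comm]; exact C.hQ
    have h1 : ∀ᶠ y in 𝓝[sphere z 1] V, e ∈ T y := by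
      rw [eventually_circle C.hV]
      obtain ⟨ε1, hε1, k1⟩ := mem_nhdsGT_iff_exists_Ioo_subset.1 g1
      obtain ⟨ε2, hε2, k2⟩ := mem_nhdsGT_iff_exists_Ioo_subset.1 g2
      have h0 : Ioo (-ε2) ε1 ∈ 𝓝 (0 : ℝ) := Ioo_mem_nhds (by
        have : (0 : ℝ) < ε2 := hε2
        linarith) hε1
      filter_upwards [h0] with t ht
      rcases lt_trichotomy t 0 with h2 | h2 | h2
      · have h3 : (-t) ∈ Ioo 0 ε2 := ⟨by linarith, by linarith [ht.1]⟩
        have h4 : e ∈ T (z + (V - z) * cis (-1 * -t)) := (k2 h3).1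
        rwa [show (-1 * -t : ℝ) = t by ring] at h4
      · rw [h2, cis_zero394, mul_one, add_sub_cancel, C.TV]; simp
      · have h4 : e ∈ T (z + (V - z) * cis (1 * t)) := (k1 ⟨h2, ht.2⟩).1
        rwa [one_mul] at h4
    obtain ⟨W, hW, hWs⟩ := mem_nhdsWithin_iff_exists_mem_nhds_inter.1 h1
    obtain ⟨y, hyW, hyd, hyT⟩ := hacc W hW
    have h2 : T y = {a, b} := hyT.self_of_nhdsWithin (show y ∈ sphere z 1 from hyd)
    have h3 : e ∈ T y := hWs ⟨hyW, hyd⟩
    rw [h2] at h3
    exact heP h3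
  rcases s1 with s1 | s1 <;> rcases s2 with s2 | s2
  · exact absurd s2 fun s2 => no1 s1 s2
  · refine ⟨-1, Or.inr rfl, ?_, s2⟩
    rw [neg_neg]; exact s1
  · exact ⟨1, Or.inl rfl, s2, s1⟩
  · exact absurd s2 fun s2 => no2 s1 s2

end Vale.Agent.P032.Six
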